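import Vale.Agent.P363.B.DuhamelB

/-!
# P363 B/Duhamel  (TASK)

`GT_sub_sq_le`: `GT 0 t a x - a x = ∫ Gk t h (a (x - h) - a x) dh`, Jensen, Tonelli, `shift_sq_le` with `A = B = univ`.  `duh_abs_le`: `∫₀ᵗ r^{-3/4} dr = 4 t^{1/4}`, `4π ≥ 1`.
`duhamel`: for every `x`, `r ↦ GT m r a x` is differentiable on `r > 0` (`hasDerivAt_integral_of_dominated_loc_of_deriv_le`, `hasDerivAt_Gk`) with derivative
`-e^{-m r} (kin a η + m ip a η) ≥ -GT m r s x` for `η = Gk r (x - ·)` (`exists_Gk`), so `GT m ε a x ≤ GT m t a x + ∫_ε^t GT m r s x`; let `ε → 0` along a sequence for which `GT 0 ε a → a` a.e.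
-/

open MeasureTheory Filter Topology Set
open scoped ContDiff

set_option linter.unusedSectionVars false

noncomputable section

namespace Vale.Agent.P363

theorem duh_dom {t : ℝ} (ht : 0 < t) : ∃ C : ℝ, ∀ r ∈ Ioo (t / 2) (2 * t), ∀ z : E3,
    |(‖z‖ ^ 2 / (2 * r ^ 2) - 3 / (2 * r)) * Gk r z| ≤ C * Gk (4 * t) z := by
  have pi0 := Real.pi_pos
  set c1 := (2 * Real.pi * (t / 2)) ^ (-(3 / 2) : ℝ) with hc1
  set c4 := (2 * Real.pi * (4 * t)) ^ (-(3 / 2) : ℝ) with hc4
  have c40 : 0 < c4 := by positivity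
  refine ⟨19 / t * c1 / c4, fun r hr z => ?_⟩
  have r0 : 0 < r := (half_pos ht).trans hr.1
  set u := ‖z‖ ^ 2 / (8 * t) with hu
  have u0 : 0 ≤ u := by positivity
  set E := Real.exp (-u) with hE
  have E0 : 0 < E := Real.exp_pos _
  have E1 : E ≤ 1 := Real.exp_le_one_iff.2 (by linarith)
  have E2 : u * E ≤ 1 := by
    rw [hE, Real.exp_neg, ← div_eq_mul_inv, div_le_one (Real.exp_pos _)]
    linarith [Real.add_one_le_exp u]
  have h1 : Gk r z ≤ c1 * (E * E) := by
    refine mul_le_mul (Real.rpow_le_rpow_of_nonpos (by positivity) (by gcongr; exact hr.1.le)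
      (by norm_num)) ?_ (Real.exp_pos _).le (by positivity)
    rw [hE, ← Real.exp_add, Real.exp_le_exp, neg_div, ← neg_add, neg_le_neg_iff, hu, ← add_div,
      div_le_div_iff₀ (by positivity) (by positivity)]
    nlinarith [mul_le_mul_of_nonneg_left hr.2.le (sq_nonneg ‖z‖)]
  have h2 : |‖z‖ ^ 2 / (2 * r ^ 2) - 3 / (2 * r)| ≤ (16 * u + 3) / t := by
    have a1 : ‖z‖ ^ 2 / (2 * r ^ 2) ≤ ‖z‖ ^ 2 / (2 * (t / 2) ^ 2) := by gcongr; exact hr.1.le
    have a2 : 3 / (2 * r) ≤ 3 / (2 * (t / 2)) := by gcongr; exact hr.1.le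
    refine (abs_sub _ _).trans ?_
    rw [abs_of_nonneg (by positivity), abs_of_nonneg (by positivity)]
    refine (add_le_add a1 a2).trans (le_of_eq ?_)
    rw [hu]
    field_simp
    ring
  have h3 : Gk (4 * t) z = c4 * E := by
    rw [Gk, hE, hu, neg_div]
    congr 4
    ring
  rw [abs_mul, abs_of_pos (Gk_pos r0 z), h3]
  calc _ ≤ (16 * u + 3) / t * (c1 * (E * E)) := mul_le_mul h2 h1 (Gk_pos r0 z).le (by positivity)
    _ = (16 * (u * E) + 3 * E) * (c1 * E / t) := by ring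
    _ ≤ 19 * (c1 * E / t) := mul_le_mul_of_nonneg_right (by linarith) (by positivity)
    _ = _ := by field_simp

theorem duh_deriv {f : E3 → ℝ} (hf : MemLp f 2 volume) {t : ℝ} (ht : 0 < t) (x : E3) :
    HasDerivAt (fun r => ∫ y, Gk r (x - y) * f y)
      (∫ y, (‖x - y‖ ^ 2 / (2 * t ^ 2) - 3 / (2 * t)) * Gk t (x - y) * f y) t := by
  obtain ⟨C, hC⟩ := duh_dom ht
  have c : ∀ r, Continuous fun y => Gk r (x - y) := fun r =>
    (contDiff_Gk r).continuous.comp (by fun_prop)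
  refine (hasDerivAt_integral_of_dominated_loc_of_deriv_le
    (F' := fun r y => (‖x - y‖ ^ 2 / (2 * r ^ 2) - 3 / (2 * r)) * Gk r (x - y) * f y)
    (bound := fun y => C * (Gk (4 * t) (x - y) * ‖f y‖))
    (Ioo_mem_nhds (half_lt_self ht) (show t < 2 * t by linarith))
    (Eventually.of_forall fun r => (c r).aestronglyMeasurable.mul hf.1)
    ((memLp_Gk ht x).integrable_mul hf)
    ((Continuous.mul (by fun_prop) (c t)).aestronglyMeasurable.mul hf.1)
    (Eventually.of_forall fun y r hr => ?_)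
    (((memLp_Gk (by positivity) x).integrable_mul hf.norm).const_mul C)
    (Eventually.of_forall fun y r hr => (hasDerivAt_Gk ((half_pos ht).trans hr.1) _).mul_const _)).2
  rw [norm_mul, ← mul_assoc]
  exact mul_le_mul_of_nonneg_right (hC r hr _) (norm_nonneg _)

theorem duh_step (a : S e3) {s : E3 → ℝ} (hs : MemLp s 2 volume) {m : ℝ}
    (h : ∀ η : S e3, (∀ x, 0 ≤ η.f x) → kin a η + m * ip a η ≤ ∫ x, s x * η.f x) {ε t : ℝ}
    (hε : 0 < ε) (ht : ε ≤ t) (x : E3) :
    GT m ε a.f x ≤ GT m t a.f x + ((∫ r in Ioc 0 t, GT m r s x) - ∫ r in Ioc 0 ε, GT m r s x) := by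
  have sub : Icc ε t ⊆ Ioi 0 := fun r hr => hε.trans_le hr.1
  have H := intervalIntegral.sub_le_integral_of_hasDeriv_right_of_le (g := fun r => -GT m r a.f x)
    (φ := fun r => GT m r s x) ht ((duh_cont a.mem m x).mono sub).neg
    (fun r hr => ((((hasDerivAt_id' r).const_mul (-m)).exp.fun_mul
      (duh_deriv a.mem (hε.trans hr.1) x)).fun_neg).hasDerivWithinAt)
    (((duh_cont hs m x).mono sub).integrableOn_compact isCompact_Icc) fun r hr => by
      obtain ⟨η, h1, h2⟩ := exists_Gk (hε.trans hr.1) x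
      have h3 := h η fun y => (h1 y).symm ▸ (Gk_pos (hε.trans hr.1) _).le
      rw [(h2 a).2, ip] at h3
      simp only [h1, mul_comm _ (Gk r _)] at h3
      have h4 := mul_le_mul_of_nonneg_left h3 (Real.exp_pos (-m * r)).le
      simp only [GT, mul_comm _ (Gk r _)]
      linarith
  have i1 : IntervalIntegrable (fun r => GT m r s x) volume 0 t :=
    (intervalIntegrable_iff_integrableOn_Ioc_of_le (hε.le.trans ht)).2
      (duh_abs_le hs m (hε.trans_le ht) x).1
  have i2 : IntervalIntegrable (fun r => GT m r s x) volume 0 ε :=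
    (intervalIntegrable_iff_integrableOn_Ioc_of_le hε.le).2 (duh_abs_le hs m hε x).1
  rw [← intervalIntegral.integral_of_le (hε.le.trans ht), ← intervalIntegral.integral_of_le hε.le,
    intervalIntegral.integral_interval_sub_left i1 i2]
  linarith

theorem duh_ae (a : S e3) {t : ℝ} (ht : 0 < t) : ∃ ε : ℕ → ℝ, (∀ n, 0 < ε n ∧ ε n ≤ t) ∧
    Tendsto ε atTop (𝓝 0) ∧ ∀ᵐ x, Tendsto (fun n => GT 0 (ε n) a.f x) atTop (𝓝 (a.f x)) := by
  have p : ∀ n : ℕ, 0 < t * (1 / ((n : ℝ) + 1)) := fun n => by positivity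
  have T : Tendsto (fun n : ℕ => t * (1 / ((n : ℝ) + 1))) atTop (𝓝 0) := by
    simpa using (tendsto_one_div_add_atTop_nhds_zero_nat (𝕜 := ℝ)).const_mul t
  have i : ∀ n : ℕ, Integrable fun x => (GT 0 (t * (1 / ((n : ℝ) + 1))) a.f x - a.f x) ^ 2 :=
    fun n => ((GT_memLp a.mem (p n)).sub a.mem).integrable_sq
  have T2 : Tendsto (fun n : ℕ => ∫ x, (GT 0 (t * (1 / ((n : ℝ) + 1))) a.f x - a.f x) ^ 2) atTop
      (𝓝 0) := squeeze_zero (fun n => integral_nonneg fun _ => sq_nonneg _)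
    (fun n => GT_sub_sq_le a (p n)) (by simpa using (T.const_mul 24).mul_const (kin a a))
  obtain ⟨φ, hφ, hl⟩ := (tendstoInMeasure_of_tendsto_eLpNorm (p := 1) (g := 0) one_ne_zero
    (fun n => (i n).1) aestronglyMeasurable_zero (l := atTop) (by
      simp only [sub_zero, eLpNorm_one_eq_lintegral_enorm,
        ← ofReal_integral_norm_eq_lintegral_enorm (i _), norm_pow, Real.norm_eq_abs, sq_abs]
      simpa using ENNReal.tendsto_ofReal T2)).exists_seq_tendsto_ae
  refine ⟨fun n => t * (1 / ((φ n : ℝ) + 1)), fun n => ⟨p _, mul_le_of_le_one_right ht.le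
    ((div_le_one (by positivity)).2 (le_add_of_nonneg_left (Nat.cast_nonneg _)))⟩,
    T.comp hφ.tendsto_atTop, hl.mono fun x hx => ?_⟩
  refine tendsto_iff_norm_sub_tendsto_zero.2 ?_
  simpa [Real.sqrt_sq_eq_abs] using hx.sqrt

theorem duhamel (a : S e3) {s : E3 → ℝ} (hs : MemLp s 2 volume) {m : ℝ}
    (h : ∀ η : S e3, (∀ x, 0 ≤ η.f x) → kin a η + m * ip a η ≤ ∫ x, s x * η.f x) {t : ℝ}
    (ht : 0 < t) : ∀ᵐ x, a.f x ≤ GT m t a.f x + ∫ r in Ioc 0 t, GT m r s x := by
  obtain ⟨ε, h1, h2, h3⟩ := duh_ae a ht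
  filter_upwards [h3] with x hx
  have T1 : Tendsto (fun n => GT m (ε n) a.f x) atTop (𝓝 (a.f x)) := by
    simpa [duh_m m] using (h2.const_mul (-m)).rexp.mul hx
  have T2 : Tendsto (fun n => ∫ r in Ioc 0 (ε n), GT m r s x) atTop (𝓝 0) :=
    squeeze_zero_norm (fun n => (duh_abs_le hs m (h1 n).1 x).2) (by
      simpa using (((h2.const_mul |m|).rexp.const_mul 4).mul (h2.rpow_const (p := (1 / 4 : ℝ))
        (Or.inr (by norm_num)))).mul_const (√(∫ y, s y ^ 2)))
  simpa using le_of_tendsto_of_tendsto' T1 ((T2.const_sub _).const_add _)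
    fun n => duh_step a hs h (h1 n).1 (h1 n).2 x

theorem duhamel_eq (a : S e3) {s : E3 → ℝ} (hs : MemLp s 2 volume) {m : ℝ}
    (h : ∀ η : S e3, kin a η + m * ip a η = ∫ x, s x * η.f x) {t : ℝ}
    (ht : 0 < t) : ∀ᵐ x, a.f x = GT m t a.f x + ∫ r in Ioc 0 t, GT m r s x := by
  filter_upwards [duhamel a hs (fun η _ => (h η).le) ht, duhamel (-a) (m := m) hs.neg (fun η _ => by
    rw [bil_kin.neg_left, bil_ip.neg_left]
    simp only [Pi.neg_apply, neg_mul, integral_neg]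
    linarith [h η]) ht] with x h1 h2
  simp only [GT, S.neg_f, Pi.neg_apply, mul_neg, integral_neg] at h1 h2 ⊢
  linarith

theorem sup_bound (a : S e3) {s : E3 → ℝ} (hs : MemLp s 2 volume)
    (h : ∀ η : S e3, (∀ x, 0 ≤ η.f x) → kin a η ≤ ∫ x, s x * η.f x) :
    ∀ᵐ x, a.f x ≤ √(ip a a) + 4 * √(∫ y, s y ^ 2) := by
  filter_upwards [duhamel a hs (m := 0) (fun η hη => by simpa using h η hη) one_pos] with x hx
  have h1 := (le_abs_self _).trans (GT_abs_le a.mem 0 one_pos x)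
  have h2 := (le_abs_self _).trans (duh_abs_le hs 0 one_pos x).2
  simp only [neg_zero, abs_zero, Real.exp_zero, Real.one_rpow, mul_one, one_mul] at h1 h2
  rw [ip_self]
  linarith

theorem duh_unif {s : E3 → ℝ} (hs : MemLp s 2 volume) :
    UniformContinuous fun x => ∫ r in Ioc (0 : ℝ) 1, GT 0 r s x := by
  set w : E3 → ℝ → ℝ := fun h r => √(Gk (r + r) 0 - 2 * Gk (r + r) h + Gk (r + r) 0) with hw
  have m0 : ∀ h, Measurable fun r : ℝ => Gk (r + r) h := fun h =>
    measurable_Gk.comp (f := fun r : ℝ => (r + r, h)) (by fun_prop)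
  have m1 : ∀ h, AEStronglyMeasurable (w h) (volume.restrict (Ioc 0 1)) := fun h =>
    (((m0 0).sub ((m0 h).const_mul 2)).add (m0 0)).sqrt.aestronglyMeasurable
  have b1 : ∀ h, ∀ᵐ r ∂(volume.restrict (Ioc (0 : ℝ) 1)), ‖w h r‖ ≤ 2 * r ^ (-(3 / 4) : ℝ) := by
    intro h
    filter_upwards [ae_restrict_mem measurableSet_Ioc] with r hr
    have r0 := add_pos hr.1 hr.1
    have h1 := Gk_le r0 0
    have h2 := Gk_pos r0 h
    have h3 := Gk_pos r0 0
    rw [show 2 * Real.pi * (r + r) = 4 * Real.pi * r by ring] at h1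
    rw [Real.norm_of_nonneg (Real.sqrt_nonneg _)]
    refine le_trans (Real.sqrt_le_iff.2 ⟨by positivity, ?_⟩)
      (mul_le_mul_of_nonneg_left (duh_sqrt hr.1) zero_le_two)
    rw [mul_pow, Real.sq_sqrt (h3.le.trans h1)]
    linarith
  have bi := (duh_rpow one_pos).1.const_mul 2
  have c := continuous_of_dominated m1 b1 bi (Eventually.of_forall fun r => by
    have := (contDiff_Gk (r + r)).continuous
    simp only [hw]
    fun_prop)
  have T := (c.mul continuous_const (g := fun _ => √(∫ y, s y ^ 2))).tendsto' 0 0 (by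
    simp [hw, two_mul])
  refine Metric.uniformContinuous_iff.2 fun ε hε => ?_
  obtain ⟨δ, δ0, hδ⟩ := Metric.eventually_nhds_iff.1 (T.eventually (gt_mem_nhds hε))
  refine ⟨δ, δ0, fun {x x'} hx => lt_of_le_of_lt ?_ (hδ (y := x - x') (by
    rwa [dist_zero_right, ← dist_eq_norm]))⟩
  rw [dist_eq_norm, ← integral_sub (duh_abs_le hs 0 one_pos x).1 (duh_abs_le hs 0 one_pos x').1,
    Pi.mul_apply, ← integral_mul_const]
  refine norm_integral_le_of_norm_le ((bi.mono' (m1 _) (b1 _)).mul_const _) ?_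
  filter_upwards [ae_restrict_mem measurableSet_Ioc] with r hr
  exact duh_dist hs hr.1 hr.1 x x'

theorem exists_cont (a : S e3) {s : E3 → ℝ} (hs : MemLp s 2 volume)
    (h : ∀ η : S e3, kin a η = ∫ x, s x * η.f x) :
    ∃ F : E3 → ℝ, UniformContinuous F ∧ a.f =ᵐ[volume] F :=
  ⟨_, (uniformContinuous_GT a.mem 0 one_pos).add (duh_unif hs),
    duhamel_eq a hs (m := 0) (fun η => by simpa using h η) one_pos⟩

end Vale.Agent.P363
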