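import Vale.Agent.P363.B.Gauss
import Vale.Agent.P363.A.Line

/-!
# P363 B/DuhamelB: first half of B/Duhamel

`GT_sub_sq_le`: `GT 0 t a x - a x = ∫ Gk t h (a (x - h) - a x) dh`, Jensen, Tonelli, `shift_sq_le` with `A = B = univ`.  `duh_abs_le`: `∫₀ᵗ r^{-3/4} dr = 4 t^{1/4}`, `4π ≥ 1`.
`duhamel`: for every `x`, `r ↦ GT m r a x` is differentiable on `r > 0` (`hasDerivAt_integral_of_dominated_loc_of_deriv_le`, `hasDerivAt_Gk`) with derivative
`-e^{-m r} (kin a η + m ip a η) ≥ -GT m r s x` for `η = Gk r (x - ·)` (`exists_Gk`), so `GT m ε a x ≤ GT m t a x + ∫_ε^t GT m r s x`; let `ε → 0` along a sequence for which `GT 0 ε a → a` a.e.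
-/

open MeasureTheory Filter Topology Set
open scoped ContDiff

set_option linter.unusedSectionVars false

noncomputable section

namespace Vale.Agent.P363

theorem duh_cs {f g : E3 → ℝ} (hf : MemLp f 2 volume) (hg : MemLp g 2 volume) :
    |∫ y, f y * g y| ≤ √(∫ y, f y ^ 2) * √(∫ y, g y ^ 2) := by
  have h := integral_mul_norm_le_Lp_mul_Lq Real.HolderConjugate.two_two (f := f) (g := g)
    (by simpa using hf) (by simpa using hg)
  simp only [Real.rpow_two, Real.norm_eq_abs, sq_abs, ← Real.sqrt_eq_rpow, ← abs_mul] at h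
  exact abs_integral_le_integral_abs.trans h

theorem duh_m (m t : ℝ) (f : E3 → ℝ) (x : E3) : GT m t f x = Real.exp (-m * t) * GT 0 t f x := by
  simp [GT]

theorem duh_0 (t : ℝ) (f : E3 → ℝ) (x : E3) : GT 0 t f x = ∫ y, Gk t (x - y) * f y := by
  simp [GT]

theorem duh_sqrt {t : ℝ} (ht : 0 < t) :
    √((4 * Real.pi * t) ^ (-(3 / 2) : ℝ)) ≤ t ^ (-(3 / 4) : ℝ) := by
  rw [Real.sqrt_eq_rpow, ← Real.rpow_mul (by positivity)]
  norm_num
  exact Real.rpow_le_rpow_of_nonpos ht (by nlinarith [Real.pi_gt_three]) (by norm_num)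

theorem GT_abs_le {f : E3 → ℝ} (hf : MemLp f 2 volume) (m : ℝ) {t : ℝ} (ht : 0 < t) (x : E3) :
    |GT m t f x| ≤ Real.exp (-m * t) * t ^ (-(3 / 4) : ℝ) * √(∫ y, f y ^ 2) := by
  rw [GT, abs_mul, abs_of_pos (Real.exp_pos _), mul_assoc]
  refine mul_le_mul_of_nonneg_left ((duh_cs (memLp_Gk ht x) hf).trans ?_) (Real.exp_pos _).le
  rw [integral_Gk_sq ht]
  exact mul_le_mul_of_nonneg_right (duh_sqrt ht) (Real.sqrt_nonneg _)

theorem duh_dist {f : E3 → ℝ} (hf : MemLp f 2 volume) {s t : ℝ} (hs : 0 < s) (ht : 0 < t)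
    (x x' : E3) : |GT 0 s f x - GT 0 t f x'| ≤
      √(Gk (s + s) 0 - 2 * Gk (s + t) (x - x') + Gk (t + t) 0) * √(∫ y, f y ^ 2) := by
  have m1 := memLp_Gk hs x
  have m2 := memLp_Gk ht x'
  have c : ∀ {s t : ℝ}, 0 < s → 0 < t → ∀ x x' : E3,
      ∫ y, Gk s (x - y) * Gk t (x' - y) = Gk (s + t) (x - x') := fun hs ht x x' => by
    simp only [Gk_sub_comm _ x', Gk_conv hs ht]
  have i1 : Integrable fun y => Gk s (x - y) * Gk s (x - y) := m1.integrable_mul m1
  have i2 : Integrable fun y => 2 * (Gk s (x - y) * Gk t (x' - y)) :=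
    (m1.integrable_mul m2).const_mul 2
  have i3 : Integrable fun y => Gk t (x' - y) * Gk t (x' - y) := m2.integrable_mul m2
  have i4 : Integrable fun y => Gk s (x - y) * Gk s (x - y) - 2 * (Gk s (x - y) * Gk t (x' - y)) :=
    i1.sub i2
  have e : ∫ y, (Gk s (x - y) - Gk t (x' - y)) ^ 2 =
      Gk (s + s) 0 - 2 * Gk (s + t) (x - x') + Gk (t + t) 0 := by
    simp only [sub_sq, mul_assoc]
    simp only [sq]
    rw [integral_add i4 i3, integral_sub i1 i2, integral_const_mul, c hs hs, c hs ht, c ht ht,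
      sub_self, sub_self]
  have i5 : Integrable fun y => Gk s (x - y) * f y := m1.integrable_mul hf
  have i6 : Integrable fun y => Gk t (x' - y) * f y := m2.integrable_mul hf
  rw [duh_0, duh_0, ← integral_sub i5 i6, ← e]
  simp only [← sub_mul]
  exact duh_cs (m1.sub m2) hf

theorem continuousOn_GT {f : E3 → ℝ} (hf : MemLp f 2 volume) (m : ℝ) :
    ContinuousOn (fun z : ℝ × E3 => GT m z.1 f z.2) {z | 0 < z.1} := by
  simp only [duh_m m]
  refine ContinuousOn.mul (by fun_prop) fun z hz => ?_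
  have hz : 0 < z.1 := hz
  have c1 : ContinuousOn (fun w : ℝ × E3 => Gk (w.1 + w.1) 0) {w | 0 < w.1} :=
    continuousOn_Gk.comp (f := fun w : ℝ × E3 => (w.1 + w.1, (0 : E3))) (by fun_prop)
      fun w hw => add_pos (a := w.1) hw hw
  have c2 : ContinuousOn (fun w : ℝ × E3 => Gk (w.1 + z.1) (w.2 - z.2)) {w | 0 < w.1} :=
    continuousOn_Gk.comp (f := fun w : ℝ × E3 => (w.1 + z.1, w.2 - z.2)) (by fun_prop)
      fun w hw => add_pos hw hz
  have T := ((((c1 z hz).tendsto.sub ((c2 z hz).tendsto.const_mul 2)).add_const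
    (Gk (z.1 + z.1) 0)).sqrt.mul_const (√(∫ y, f y ^ 2)))
  rw [sub_self, show Gk (z.1 + z.1) 0 - 2 * Gk (z.1 + z.1) 0 + Gk (z.1 + z.1) 0 = 0 by ring, Real.sqrt_zero,
    zero_mul] at T
  refine tendsto_iff_norm_sub_tendsto_zero.2 (squeeze_zero' (Eventually.of_forall fun _ =>
    norm_nonneg _) ?_ T)
  filter_upwards [self_mem_nhdsWithin] with w hw
  exact duh_dist hf hw hz w.2 z.2

theorem GT_lip {t : ℝ} (ht : 0 < t) : ∃ K : ℝ, 0 ≤ K ∧ ∀ f : E3 → ℝ, MemLp f 2 volume → ∀ x x' : E3,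
    |GT 0 t f x - GT 0 t f x'| ≤ K * ‖x - x'‖ * √(∫ y, f y ^ 2) := by
  set c := (2 * Real.pi * (t + t)) ^ (-(3 / 2) : ℝ) with hc
  have c0 : 0 ≤ c := by positivity
  refine ⟨√(c / (t + t)), Real.sqrt_nonneg _, fun f hf x x' => (duh_dist hf ht ht x x').trans
    (mul_le_mul_of_nonneg_right (Real.sqrt_le_iff.2 ⟨by positivity, ?_⟩) (Real.sqrt_nonneg _))⟩
  have h1 := mul_le_mul_of_nonneg_left (Real.add_one_le_exp (-‖x - x'‖ ^ 2 / (2 * (t + t)))) c0
  rw [mul_pow, Real.sq_sqrt (by positivity), show c / (t + t) * ‖x - x'‖ ^ 2 =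
    -2 * (c * (-‖x - x'‖ ^ 2 / (2 * (t + t)))) by field_simp]
  simp only [Gk, ← hc, norm_zero]
  norm_num
  linarith

theorem uniformContinuous_GT {f : E3 → ℝ} (hf : MemLp f 2 volume) (m : ℝ) {t : ℝ} (ht : 0 < t) :
    UniformContinuous (GT m t f) := by
  obtain ⟨K, K0, hK⟩ := GT_lip ht
  refine (LipschitzWith.of_dist_le' (K := Real.exp (-m * t) * K * √(∫ y, f y ^ 2))
    fun x x' => ?_).uniformContinuous
  rw [Real.dist_eq, dist_eq_norm, duh_m m, duh_m m t f x', ← mul_sub, abs_mul,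
    abs_of_pos (Real.exp_pos _)]
  exact (mul_le_mul_of_nonneg_left (hK f hf x x') (Real.exp_pos _).le).trans (le_of_eq (by ring))

theorem duh_rpow {t : ℝ} (ht : 0 < t) : IntegrableOn (fun r : ℝ => r ^ (-(3 / 4) : ℝ)) (Ioc 0 t) ∧
    ∫ r in Ioc 0 t, r ^ (-(3 / 4) : ℝ) = 4 * t ^ (1 / 4 : ℝ) := by
  refine ⟨(intervalIntegral.intervalIntegrable_rpow' (a := 0) (by norm_num)).1, ?_⟩
  rw [← intervalIntegral.integral_of_le ht.le, integral_rpow (Or.inl (by norm_num))]
  norm_num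
  ring

theorem duh_cont {s : E3 → ℝ} (hs : MemLp s 2 volume) (m : ℝ) (x : E3) :
    ContinuousOn (fun r => GT m r s x) (Ioi 0) :=
  (continuousOn_GT hs m).comp (f := fun r : ℝ => (r, x)) (by fun_prop) fun _ hr => hr

theorem duh_abs_le {s : E3 → ℝ} (hs : MemLp s 2 volume) (m : ℝ) {t : ℝ} (ht : 0 < t) (x : E3) :
    IntegrableOn (fun r => GT m r s x) (Ioc 0 t) ∧
      |∫ r in Ioc 0 t, GT m r s x| ≤ 4 * Real.exp (|m| * t) * t ^ (1 / 4 : ℝ) * √(∫ y, s y ^ 2) := by
  obtain ⟨h1, h2⟩ := duh_rpow ht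
  have hb := (h1.const_mul (Real.exp (|m| * t))).mul_const (√(∫ y, s y ^ 2))
  have hle : ∀ᵐ r ∂(volume.restrict (Ioc 0 t)), ‖GT m r s x‖ ≤
      Real.exp (|m| * t) * r ^ (-(3 / 4) : ℝ) * √(∫ y, s y ^ 2) := by
    filter_upwards [ae_restrict_mem measurableSet_Ioc] with r hr
    refine (GT_abs_le hs m hr.1 x).trans ?_
    have := hr.1.le
    have h3 := Real.exp_le_exp.2 (mul_le_mul (neg_le_abs m) hr.2 this (abs_nonneg m))
    gcongr
  refine ⟨hb.mono' (((duh_cont hs m x).mono Ioc_subset_Ioi_self).aestronglyMeasurable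
    measurableSet_Ioc) hle, (norm_integral_le_of_norm_le hb hle).trans (le_of_eq ?_)⟩
  rw [integral_mul_const, integral_const_mul, h2]
  ring

theorem duh_jen {t : ℝ} (ht : 0 < t) {Φ : E3 × E3 → ℝ}
    (hm : AEStronglyMeasurable Φ (volume.prod volume))
    (hi : Integrable (fun z : E3 × E3 => Gk t z.2 * Φ z ^ 2) (volume.prod volume)) :
    MemLp (fun x => ∫ h, Gk t h * Φ (x, h)) 2 volume ∧
      ∫ x, (∫ h, Gk t h * Φ (x, h)) ^ 2 ≤ ∫ h, ∫ x, Gk t h * Φ (x, h) ^ 2 := by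
  have c := (contDiff_Gk t).continuous
  have sq' : ∀ h, √(Gk t h) ^ 2 = Gk t h := fun h => Real.sq_sqrt (Gk_pos ht h).le
  have m1 : MemLp (fun h => √(Gk t h)) 2 volume :=
    (memLp_two_iff_integrable_sq c.sqrt.aestronglyMeasurable).2 (by
      simpa only [sq'] using integrable_Gk ht)
  have key : ∀ᵐ x, ‖(∫ h, Gk t h * Φ (x, h)) ^ 2‖ ≤ ∫ h, Gk t h * Φ (x, h) ^ 2 := by
    filter_upwards [hi.prod_right_ae, hm.prodMk_left] with x h1 h2
    have h3 := duh_cs m1 ((memLp_two_iff_integrable_sq (f := fun h => √(Gk t h) * Φ (x, h))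
      (c.sqrt.aestronglyMeasurable.mul h2)).2 (by simpa only [mul_pow, sq'] using h1))
    simp only [← mul_assoc, Real.mul_self_sqrt (Gk_pos ht _).le, mul_pow, sq', integral_Gk ht,
      Real.sqrt_one, one_mul] at h3
    rw [Real.norm_of_nonneg (sq_nonneg _), ← sq_abs]
    exact (pow_le_pow_left₀ (abs_nonneg _) h3 2).trans_eq (Real.sq_sqrt
      (integral_nonneg fun h => mul_nonneg (Gk_pos ht h).le (sq_nonneg _)))
  have m2 : AEStronglyMeasurable (fun x => ∫ h, Gk t h * Φ (x, h)) volume :=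
    ((c.comp continuous_snd).aestronglyMeasurable.mul hm).integral_prod_right'
  have i2 := hi.integral_prod_left.mono' (m2.pow 2) key
  refine ⟨(memLp_two_iff_integrable_sq m2).2 i2, ?_⟩
  rw [← integral_integral_swap (f := fun x h => Gk t h * Φ (x, h) ^ 2) hi]
  exact integral_mono_ae i2 hi.integral_prod_left (key.mono fun x hx => (le_abs_self _).trans hx)

theorem duh_flip (t : ℝ) (f : E3 → ℝ) (x : E3) : GT 0 t f x = ∫ h, Gk t h * f (x - h) := by
  rw [duh_0, ← integral_sub_left_eq_self _ _ x]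
  simp only [sub_sub_cancel]

theorem duh_prod {f : E3 → ℝ} (hf : MemLp f 2 volume) {t : ℝ} (ht : 0 < t) :
    AEStronglyMeasurable (fun z : E3 × E3 => f (z.1 - z.2)) (volume.prod volume) ∧
      Integrable (fun z : E3 × E3 => Gk t z.2 * f (z.1 - z.2) ^ 2) (volume.prod volume) :=
  ⟨hf.1.comp_quasiMeasurePreserving (quasiMeasurePreserving_sub volume volume),
    (integrable_Gk ht).convolution_integrand (ContinuousLinearMap.mul ℝ ℝ) hf.integrable_sq⟩

theorem GT_memLp {f : E3 → ℝ} (hf : MemLp f 2 volume) {t : ℝ} (ht : 0 < t) :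
    MemLp (GT 0 t f) 2 volume := by
  rw [funext (duh_flip t f)]
  exact (duh_jen ht (duh_prod hf ht).1 (duh_prod hf ht).2).1

theorem GT_sub_sq_le (a : S e3) {t : ℝ} (ht : 0 < t) :
    ∫ x, (GT 0 t a.f x - a.f x) ^ 2 ≤ 24 * t * kin a a := by
  obtain ⟨h1, h2⟩ := duh_prod a.mem ht
  have hm := h1.sub a.mem.1.comp_fst
  have hi : Integrable (fun z : E3 × E3 => Gk t z.2 * (a.f (z.1 - z.2) - a.f z.1) ^ 2)
      (volume.prod volume) := by
    refine ((h2.add (a.int_sq.mul_prod (integrable_Gk ht))).const_mul 2).mono'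
      (((contDiff_Gk t).continuous.comp continuous_snd).aestronglyMeasurable.mul (hm.pow 2))
      (Eventually.of_forall fun z => ?_)
    have g := (Gk_pos ht z.2).le
    rw [Real.norm_of_nonneg (mul_nonneg g (sq_nonneg _)), Pi.add_apply]
    nlinarith [mul_nonneg g (sq_nonneg (a.f (z.1 - z.2) + a.f z.1))]
  have e : ∀ x, GT 0 t a.f x - a.f x = ∫ h, Gk t h * (a.f (x - h) - a.f x) := by
    intro x
    have i1 : Integrable fun h => Gk t h * a.f (x - h) := by
      simpa using ((memLp_Gk ht x).integrable_mul a.mem).comp_sub_left x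
    simp only [mul_sub]
    rw [integral_sub i1 ((integrable_Gk ht).mul_const _), integral_mul_const, integral_Gk ht,
      one_mul, duh_flip]
  simp only [e]
  refine (duh_jen ht hm hi).2.trans ?_
  obtain ⟨n1, n2⟩ := integral_Gk_normSq ht
  have k0 := kin_nonneg a
  refine (integral_mono hi.integral_prod_right (n1.mul_const (2 * kin a a)) fun h => ?_).trans ?_
  · have h3 := shift_sq_le a (-h) MeasurableSet.univ MeasurableSet.univ fun _ _ _ _ => mem_univ _
    simp only [Measure.restrict_univ, ← sub_eq_add_neg, norm_neg] at h3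
    simp only [integral_const_mul, mul_assoc, kin_self]
    refine mul_le_mul_of_nonneg_left (h3.trans (le_of_eq (by ring))) (Gk_pos ht h).le
  · rw [integral_mul_const]
    nlinarith

end Vale.Agent.P363
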