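import Vale.Agent.P363.A.Limit
import Vale.Agent.P363.A.Cut

/-!
# P363 B/Gauss  (TASK)

`GaussianFourier.integral_rexp_neg_mul_sq_norm`; `Gk_conv` by completing the square and translation invariance.  `Gk_harnack`: `‖y - h‖² / (s+t) ≤ ‖y‖² / s + ‖h‖² / t`.
`Gk_exp`: `c ‖y‖ ≤ ‖y‖² / (4 t) + c² t`, so `Gk t y e^{c ‖y‖} ≤ 2^{3/2} e^{c² t} Gk (2 t) y`.  `Gk_time`: substitute `t = ‖x‖² s` (`integral_comp_mul_left_Ioi`).
-/

open MeasureTheory Filter Topology Set
open scoped ContDiff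

set_option linter.unusedSectionVars false

noncomputable section

namespace Vale.Agent.P363

theorem Gk_pos {t : ℝ} (ht : 0 < t) (x : E3) : 0 < Gk t x := by
  unfold Gk
  have := Real.pi_pos
  positivity

theorem Gk_neg (t : ℝ) (x : E3) : Gk t (-x) = Gk t x := by
  rw [Gk, Gk, norm_neg]

theorem Gk_sub_comm (t : ℝ) (x y : E3) : Gk t (x - y) = Gk t (y - x) := by
  rw [Gk, Gk, norm_sub_rev]

theorem contDiff_Gk (t : ℝ) : ContDiff ℝ ∞ (Gk t) :=
  contDiff_const.mul (Real.contDiff_exp.comp ((contDiff_norm_sq ℝ).neg.div_const _))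

theorem measurable_Gk : Measurable fun z : ℝ × E3 => Gk z.1 z.2 := by
  unfold Gk
  fun_prop

theorem continuousOn_Gk : ContinuousOn (fun z : ℝ × E3 => Gk z.1 z.2) {z | 0 < z.1} := by
  unfold Gk
  refine ContinuousOn.mul (ContinuousOn.rpow_const (by fun_prop) fun z hz => Or.inl ?_)
    (Real.continuous_exp.comp_continuousOn (ContinuousOn.div (by fun_prop) (by fun_prop)
      fun z hz => ?_))
  · have h1 : 0 < z.1 := hz
    have := Real.pi_pos
    positivity
  · have h1 : 0 < z.1 := hz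
    positivity

theorem Gk_le {t : ℝ} (ht : 0 < t) (x : E3) : Gk t x ≤ (2 * Real.pi * t) ^ (-(3 / 2) : ℝ) := by
  have := Real.pi_pos
  refine mul_le_of_le_one_right (by positivity) (Real.exp_le_one_iff.2 ?_)
  rw [neg_div, neg_nonpos]
  positivity

theorem gauss_int {t : ℝ} (ht : 0 < t) : ∫ x, Gk t x = 1 := by
  have := Real.pi_pos
  have h1 := GaussianFourier.integral_rexp_neg_mul_sq_norm (V := E3) (b := 1 / (2 * t))
    (by positivity)
  have e : ∀ x : E3, -‖x‖ ^ 2 / (2 * t) = -(1 / (2 * t)) * ‖x‖ ^ 2 := fun x => by ring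
  simp only [Gk, e]
  rw [integral_const_mul, h1, finrank_euclideanSpace_fin,
    show Real.pi / (1 / (2 * t)) = 2 * Real.pi * t by field_simp,
    ← Real.rpow_add (by positivity)]
  norm_num

theorem integrable_Gk {t : ℝ} (ht : 0 < t) : Integrable (Gk t) :=
  Integrable.of_integral_ne_zero (by rw [gauss_int ht]; exact one_ne_zero)

theorem integral_Gk {t : ℝ} (ht : 0 < t) : ∫ x, Gk t x = 1 := gauss_int ht

theorem memLp_Gk {t : ℝ} (ht : 0 < t) (x : E3) : MemLp (fun y => Gk t (x - y)) 2 volume := by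
  have hc : Continuous fun y => Gk t (x - y) :=
    (contDiff_Gk t).continuous.comp (continuous_const.sub continuous_id)
  rw [memLp_two_iff_integrable_sq hc.aestronglyMeasurable]
  refine (((integrable_Gk ht).comp_sub_left x).const_mul
    ((2 * Real.pi * t) ^ (-(3 / 2) : ℝ))).mono' (hc.pow 2).aestronglyMeasurable
    (Eventually.of_forall fun y => ?_)
  have h1 := Gk_pos ht (x - y)
  rw [Real.norm_of_nonneg (sq_nonneg _), sq]
  exact mul_le_mul_of_nonneg_right (Gk_le ht _) h1.le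

theorem gauss_prod {s t : ℝ} (hs : 0 < s) (ht : 0 < t) (u v : E3) :
    Gk s u * Gk t v =
      Gk (s + t) (u + v) * Gk (s * t / (s + t)) ((s / (s + t)) • v - (t / (s + t)) • u) := by
  have := Real.pi_pos
  have h1 : (2 * Real.pi * s) ^ (-(3 / 2) : ℝ) * (2 * Real.pi * t) ^ (-(3 / 2) : ℝ) =
      (2 * Real.pi * (s + t)) ^ (-(3 / 2) : ℝ) *
        (2 * Real.pi * (s * t / (s + t))) ^ (-(3 / 2) : ℝ) := by
    rw [← Real.mul_rpow (by positivity) (by positivity),
      ← Real.mul_rpow (by positivity) (by positivity)]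
    congr 1
    field_simp
  have h2 : -‖u‖ ^ 2 / (2 * s) + -‖v‖ ^ 2 / (2 * t) = -‖u + v‖ ^ 2 / (2 * (s + t)) +
      -‖(s / (s + t)) • v - (t / (s + t)) • u‖ ^ 2 / (2 * (s * t / (s + t))) := by
    rw [norm_add_sq_real, norm_sub_sq_real, norm_smul, norm_smul, inner_smul_left,
      inner_smul_right, real_inner_comm u v, Real.norm_of_nonneg (by positivity),
      Real.norm_of_nonneg (by positivity)]
    simp only [conj_trivial]
    field_simp
    ring
  unfold Gk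
  rw [mul_mul_mul_comm, ← Real.exp_add, h1, h2, Real.exp_add, mul_mul_mul_comm]

theorem Gk_conv {s t : ℝ} (hs : 0 < s) (ht : 0 < t) (x z : E3) :
    ∫ y, Gk s (x - y) * Gk t (y - z) = Gk (s + t) (x - z) := by
  have e : ∀ y, Gk s (x - y) * Gk t (y - z) = Gk (s + t) (x - z) *
      Gk (s * t / (s + t)) (y - ((t / (s + t)) • x + (s / (s + t)) • z)) := by
    intro y
    rw [gauss_prod hs ht, sub_add_sub_cancel]
    congr 2
    have h1 : s / (s + t) = 1 - t / (s + t) := by field_simp; ring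
    rw [h1]
    module
  simp only [e]
  rw [integral_const_mul, integral_sub_right_eq_self (Gk (s * t / (s + t))),
    integral_Gk (by positivity), mul_one]

theorem integral_Gk_sq {t : ℝ} (ht : 0 < t) (x : E3) :
    ∫ y, Gk t (x - y) ^ 2 = (4 * Real.pi * t) ^ (-(3 / 2) : ℝ) := by
  have h1 := Gk_conv ht ht x x
  have e : ∀ y, Gk t (x - y) ^ 2 = Gk t (x - y) * Gk t (y - x) := fun y => by
    rw [sq, Gk_sub_comm t y x]
  simp only [e]
  rw [h1, sub_self, Gk, norm_zero, show 2 * Real.pi * (t + t) = 4 * Real.pi * t by ring]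
  simp

theorem gauss_half {t : ℝ} (ht : 0 < t) (y : E3) :
    Gk t y ≤ 3 * Real.exp (-(‖y‖ ^ 2 / (4 * t))) * Gk (2 * t) y := by
  have := Real.pi_pos
  have h1 : (2 * Real.pi * t) ^ (-(3 / 2) : ℝ) =
      (2 : ℝ) ^ (3 / 2 : ℝ) * (2 * Real.pi * (2 * t)) ^ (-(3 / 2) : ℝ) := by
    rw [show 2 * Real.pi * (2 * t) = 2 * (2 * Real.pi * t) by ring,
      Real.mul_rpow (x := 2) (y := 2 * Real.pi * t) (by norm_num) (by positivity), ← mul_assoc,
      ← Real.rpow_add (by norm_num)]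
    norm_num
  have h2 : (2 : ℝ) ^ (3 / 2 : ℝ) ≤ 3 := by
    refine (pow_le_pow_iff_left₀ (by positivity) (by norm_num) two_ne_zero).1 ?_
    rw [← Real.rpow_natCast, ← Real.rpow_mul (by norm_num)]
    norm_num
  have h3 : Real.exp (-‖y‖ ^ 2 / (2 * t)) =
      Real.exp (-(‖y‖ ^ 2 / (4 * t))) * Real.exp (-‖y‖ ^ 2 / (2 * (2 * t))) := by
    rw [← Real.exp_add]
    congr 1
    field_simp
    ring
  unfold Gk
  rw [h1, h3, mul_mul_mul_comm, mul_assoc 3]
  rw [mul_assoc]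
  exact mul_le_mul_of_nonneg_right h2 (by positivity)

theorem gauss_sq {t : ℝ} (ht : 0 < t) (y : E3) : Gk t y * ‖y‖ ^ 2 ≤ 12 * t * Gk (2 * t) y := by
  have h1 := gauss_half ht y
  have h2 := Real.mul_exp_neg_le_exp_neg_one (‖y‖ ^ 2 / (4 * t))
  have h3 : Real.exp (-1) ≤ 1 := Real.exp_le_one_iff.2 (by norm_num)
  have h4 := Gk_pos (t := 2 * t) (by positivity) y
  calc Gk t y * ‖y‖ ^ 2 ≤ 3 * Real.exp (-(‖y‖ ^ 2 / (4 * t))) * Gk (2 * t) y * ‖y‖ ^ 2 :=
        mul_le_mul_of_nonneg_right h1 (sq_nonneg _)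
    _ = 12 * t * Gk (2 * t) y * (‖y‖ ^ 2 / (4 * t) * Real.exp (-(‖y‖ ^ 2 / (4 * t)))) := by
        field_simp
        ring
    _ ≤ 12 * t * Gk (2 * t) y := mul_le_of_le_one_right (by positivity) (h2.trans h3)

theorem gauss_one {t : ℝ} (ht : 0 < t) (y : E3) : Gk t y ≤ 3 * Gk (2 * t) y := by
  have h4 := Gk_pos (t := 2 * t) (by positivity) y
  refine (gauss_half ht y).trans (mul_le_mul_of_nonneg_right ?_ h4.le)
  refine mul_le_of_le_one_right (by norm_num) (Real.exp_le_one_iff.2 ?_)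
  rw [neg_nonpos]
  positivity

theorem integral_Gk_normSq {t : ℝ} (ht : 0 < t) : Integrable (fun y => Gk t y * ‖y‖ ^ 2) ∧
    ∫ y, Gk t y * ‖y‖ ^ 2 ≤ 12 * t := by
  have h2 : (0 : ℝ) < 2 * t := by positivity
  have h1 : Integrable (fun y => Gk t y * ‖y‖ ^ 2) :=
    ((integrable_Gk h2).const_mul (12 * t)).mono'
      ((contDiff_Gk t).continuous.mul (continuous_norm.pow 2)).aestronglyMeasurable
      (Eventually.of_forall fun y => by
        rw [Real.norm_of_nonneg (mul_nonneg (Gk_pos ht y).le (sq_nonneg _))]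
        exact gauss_sq ht y)
  refine ⟨h1, (integral_mono h1 ((integrable_Gk h2).const_mul (12 * t)) (gauss_sq ht)).trans ?_⟩
  rw [integral_const_mul, integral_Gk h2, mul_one]

theorem Gk_exp {t : ℝ} (ht : 0 < t) (c : ℝ) (y : E3) :
    Gk t y * Real.exp (c * ‖y‖) ≤ 3 * Real.exp (c ^ 2 * t) * Gk (2 * t) y := by
  have h4 := Gk_pos (t := 2 * t) (by positivity) y
  have h1 : -(‖y‖ ^ 2 / (4 * t)) + c * ‖y‖ ≤ c ^ 2 * t := by
    have : 0 ≤ (‖y‖ - 2 * c * t) ^ 2 / (4 * t) := by positivity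
    have e : (‖y‖ - 2 * c * t) ^ 2 / (4 * t) = ‖y‖ ^ 2 / (4 * t) - c * ‖y‖ + c ^ 2 * t := by
      field_simp
      ring
    linarith
  calc Gk t y * Real.exp (c * ‖y‖)
      ≤ 3 * Real.exp (-(‖y‖ ^ 2 / (4 * t))) * Gk (2 * t) y * Real.exp (c * ‖y‖) :=
        mul_le_mul_of_nonneg_right (gauss_half ht y) (Real.exp_pos _).le
    _ = 3 * Real.exp (-(‖y‖ ^ 2 / (4 * t)) + c * ‖y‖) * Gk (2 * t) y := by
        rw [Real.exp_add]
        ring
    _ ≤ _ := by gcongr

theorem Gk_harnack {s t : ℝ} (hs : 0 < s) (ht : 0 < t) (y h : E3) :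
    (s / (s + t)) ^ (3 / 2 : ℝ) * Real.exp (-‖h‖ ^ 2 / (2 * t)) * Gk s y ≤ Gk (s + t) (y - h) := by
  have := Real.pi_pos
  have h1 : (s / (s + t)) ^ (3 / 2 : ℝ) * (2 * Real.pi * s) ^ (-(3 / 2) : ℝ) =
      (2 * Real.pi * (s + t)) ^ (-(3 / 2) : ℝ) := by
    rw [show 2 * Real.pi * s = s / (s + t) * (2 * Real.pi * (s + t)) by field_simp,
      Real.mul_rpow (x := s / (s + t)) (by positivity) (by positivity), ← mul_assoc,
      ← Real.rpow_add (by positivity)]
    norm_num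
  have h2 : -‖h‖ ^ 2 / (2 * t) + -‖y‖ ^ 2 / (2 * s) ≤ -‖y - h‖ ^ 2 / (2 * (s + t)) := by
    have h3 : ‖y - h‖ ^ 2 ≤ (‖y‖ + ‖h‖) ^ 2 :=
      pow_le_pow_left₀ (norm_nonneg _) (norm_sub_le _ _) 2
    have h4 : -(‖y‖ + ‖h‖) ^ 2 / (2 * (s + t)) ≤ -‖y - h‖ ^ 2 / (2 * (s + t)) :=
      div_le_div_of_nonneg_right (neg_le_neg h3) (by positivity)
    have h5 : 0 ≤ (t * ‖y‖ - s * ‖h‖) ^ 2 / (2 * s * t * (s + t)) := by positivity
    have e : (t * ‖y‖ - s * ‖h‖) ^ 2 / (2 * s * t * (s + t)) =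
        -(‖y‖ + ‖h‖) ^ 2 / (2 * (s + t)) - (-‖h‖ ^ 2 / (2 * t) + -‖y‖ ^ 2 / (2 * s)) := by
      field_simp
      ring
    linarith
  unfold Gk
  rw [mul_mul_mul_comm, h1, ← Real.exp_add]
  gcongr

theorem gauss_fd {t : ℝ} (ht : 0 < t) (x : E3) :
    HasFDerivAt (Gk t) (-(Gk t x / t) • innerSL ℝ x) x := by
  have h1 := ((((hasStrictFDerivAt_norm_sq x).hasFDerivAt.neg).mul_const
    (2 * t)⁻¹).exp).const_mul ((2 * Real.pi * t) ^ (-(3 / 2) : ℝ))
  refine (h1.congr_fderiv ?_).congr_of_eventuallyEq (Eventually.of_forall fun y => ?_)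
  · ext v
    simp only [Gk, smul_apply, neg_apply, smul_eq_mul,
      Pi.neg_apply, div_eq_mul_inv, nsmul_eq_mul, Nat.cast_ofNat]
    field_simp
  · simp only [Gk, div_eq_mul_inv, Pi.neg_apply]

theorem gauss_inner (x : E3) (k : Fin 3) : innerSL ℝ x (e3 k) = x k := by
  rw [innerSL_apply_apply, e3, EuclideanSpace.inner_single_right]
  simp

theorem fderiv_Gk {t : ℝ} (ht : 0 < t) (x : E3) (k : Fin 3) :
    fderiv ℝ (Gk t) x (e3 k) = -(x k / t) * Gk t x := by
  rw [(gauss_fd ht x).fderiv, smul_apply, gauss_inner, smul_eq_mul]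
  ring

theorem norm_fderiv_Gk {t : ℝ} (ht : 0 < t) (x : E3) : ‖fderiv ℝ (Gk t) x‖ = ‖x‖ / t * Gk t x := by
  have := Gk_pos ht x
  rw [(gauss_fd ht x).fderiv, norm_smul, innerSL_apply_norm, norm_neg,
    Real.norm_of_nonneg (by positivity)]
  ring

theorem hasDerivAt_Gk {t : ℝ} (ht : 0 < t) (x : E3) :
    HasDerivAt (fun s => Gk s x) ((‖x‖ ^ 2 / (2 * t ^ 2) - 3 / (2 * t)) * Gk t x) t := by
  have := Real.pi_pos
  have h1 : HasDerivAt (fun s : ℝ => (2 * Real.pi * s) ^ (-(3 / 2) : ℝ))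
      (2 * Real.pi * 1 * (-(3 / 2)) * (2 * Real.pi * t) ^ (-(3 / 2) - 1 : ℝ)) t :=
    ((hasDerivAt_id t).const_mul (2 * Real.pi)).rpow_const (Or.inl (by positivity))
  have h2 : HasDerivAt (fun s : ℝ => -‖x‖ ^ 2 / (2 * s))
      ((0 * (2 * t) - -‖x‖ ^ 2 * (2 * 1)) / (2 * t) ^ 2) t :=
    (hasDerivAt_const t _).div ((hasDerivAt_id t).const_mul 2) (by positivity)
  refine (h1.mul h2.exp).congr_deriv ?_
  rw [Real.rpow_sub_one (by positivity), Gk]
  field_simp
  ring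

theorem gauss_fd' {t : ℝ} (ht : 0 < t) (x y : E3) :
    HasFDerivAt (fun y => Gk t (x - y)) ((Gk t (x - y) / t) • innerSL ℝ (x - y)) y := by
  refine ((gauss_fd ht (x - y)).comp y ((hasFDerivAt_id y).const_sub x)).congr_fderiv ?_
  ext v
  simp

theorem gauss_mem {t : ℝ} (ht : 0 < t) (x : E3) {f : E3 → ℝ} (hf : Continuous f) {A B : ℝ}
    (hA : 0 ≤ A) (hB : 0 ≤ B) (h : ∀ y, |f y| ≤ (A + B * ‖x - y‖ ^ 2) * Gk t (x - y)) :
    MemLp f 2 volume := by
  have h2 : (0 : ℝ) < 2 * t := by positivity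
  refine ((memLp_Gk h2 x).const_mul (A * 3 + B * (12 * t))).mono' hf.aestronglyMeasurable
    (Eventually.of_forall fun y => (h y).trans ?_)
  have h3 := mul_le_mul_of_nonneg_left (gauss_one ht (x - y)) hA
  have h4 := mul_le_mul_of_nonneg_left (gauss_sq ht (x - y)) hB
  linarith

theorem gauss_d1 {t : ℝ} (ht : 0 < t) (x y : E3) (k : Fin 3) :
    fderiv ℝ (fun y => Gk t (x - y)) y (e3 k) = (x - y) k / t * Gk t (x - y) := by
  rw [(gauss_fd' ht x y).fderiv, smul_apply, gauss_inner, smul_eq_mul]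
  ring

theorem gauss_d2 {t : ℝ} (ht : 0 < t) (x y : E3) (k l : Fin 3) :
    fderiv ℝ (fun y => (x - y) k / t * Gk t (x - y)) y (e3 l) =
      ((x - y) k * (x - y) l / t ^ 2 - e3 l k / t) * Gk t (x - y) := by
  have h1 := ((hasFDerivAt_coord k (x - y)).comp y ((hasFDerivAt_id y).const_sub x)).mul_const t⁻¹
  have h2 := (h1.mul (gauss_fd' ht x y)).fderiv
  have e : (fun y => (x - y) k / t * Gk t (x - y)) =
      (fun y => ((fun y : E3 => y k) ∘ HSub.hSub x) y * t⁻¹) * fun y => Gk t (x - y) := by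
    funext y
    simp only [Pi.mul_apply, Function.comp_apply, div_eq_mul_inv]
  rw [e, h2]
  simp only [add_apply, smul_apply, gauss_inner,
    smul_eq_mul, Function.comp_apply, ContinuousLinearMap.comp_apply,
    neg_apply, ContinuousLinearMap.id_apply, map_neg, PiLp.proj_apply]
  field_simp
  ring

theorem gauss_abs (u : E3) (k : Fin 3) : |u k| ≤ 1 + ‖u‖ ^ 2 := by
  have := abs_coord_le u k
  nlinarith [sq_nonneg (‖u‖ - 1), norm_nonneg u]

/-- The kernel as an `H¹` function; the heat equation in weak form. -/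
theorem exists_Gk {t : ℝ} (ht : 0 < t) (x : E3) : ∃ η : S e3, (∀ y, η.f y = Gk t (x - y)) ∧
    ∀ a : S e3, Integrable (fun y => (‖x - y‖ ^ 2 / (2 * t ^ 2) - 3 / (2 * t)) * Gk t (x - y) * a.f y) ∧
      kin a η = -∫ y, (‖x - y‖ ^ 2 / (2 * t ^ 2) - 3 / (2 * t)) * Gk t (x - y) * a.f y := by
  have c0 : ContDiff ℝ ∞ fun y => Gk t (x - y) :=
    (contDiff_Gk t).comp (contDiff_const.sub contDiff_id)
  have ck : ∀ k, ContDiff ℝ ∞ fun y : E3 => (x - y) k := fun k =>
    (contDiff_coord k).comp (contDiff_const.sub contDiff_id)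
  have c1 : ∀ k, ContDiff ℝ ∞ fun y => (x - y) k / t * Gk t (x - y) := fun k =>
    ((ck k).div_const t).mul c0
  have m1 : ∀ k, MemLp (fun y => (x - y) k / t * Gk t (x - y)) 2 volume := by
    intro k
    refine gauss_mem ht x (c1 k).continuous (A := 1 / t) (B := 1 / t) (by positivity)
      (by positivity) fun y => ?_
    have h1 := Gk_pos ht (x - y)
    rw [abs_mul, abs_of_pos h1, abs_div, abs_of_pos ht]
    refine mul_le_mul_of_nonneg_right ?_ h1.le
    refine (div_le_div_of_nonneg_right (gauss_abs _ k) ht.le).trans (le_of_eq ?_)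
    ring
  have m2 : ∀ k l, MemLp (fun y => ((x - y) k * (x - y) l / t ^ 2 - e3 l k / t) * Gk t (x - y)) 2
      volume := by
    intro k l
    refine gauss_mem ht x (((((ck k).continuous.mul (ck l).continuous).div_const _).sub
      continuous_const).mul c0.continuous) (A := 1 / t) (B := 1 / t ^ 2) (by positivity)
      (by positivity) fun y => ?_
    have h1 := Gk_pos ht (x - y)
    rw [abs_mul, abs_of_pos h1]
    refine mul_le_mul_of_nonneg_right ((abs_sub _ _).trans ?_) h1.le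
    have h2 : |(x - y) k * (x - y) l / t ^ 2| ≤ 1 / t ^ 2 * ‖x - y‖ ^ 2 := by
      rw [abs_div, abs_of_pos (pow_pos ht 2), abs_mul, one_div_mul_eq_div, sq ‖x - y‖]
      exact div_le_div_of_nonneg_right (mul_le_mul (abs_coord_le _ _) (abs_coord_le _ _)
        (abs_nonneg _) (norm_nonneg _)) (pow_pos ht 2).le
    have h3 : |e3 l k / t| ≤ 1 / t := by
      rw [abs_div, abs_of_pos ht]
      exact div_le_div_of_nonneg_right ((abs_coord_le _ _).trans (norm_e3 l).le) ht.le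
    linarith
  have s0 := of_C1 (e := e3) (c0.of_le (by simp)) (memLp_Gk ht x) fun k => by
    simp only [gauss_d1 ht]
    exact m1 k
  have s1 := fun k => of_C1 (e := e3) ((c1 k).of_le (by simp)) (m1 k) fun l => by
    simp only [gauss_d2 ht]
    exact m2 k l
  refine ⟨S.of s0, fun y => rfl, fun a => ?_⟩
  have i1 : ∀ k, Integrable fun y =>
      a.f y * (((x - y) k * (x - y) k / t ^ 2 - e3 k k / t) * Gk t (x - y)) := fun k =>
    a.mem.integrable_mul (m2 k k)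
  have e1 : ∀ y, (‖x - y‖ ^ 2 / (2 * t ^ 2) - 3 / (2 * t)) * Gk t (x - y) * a.f y = 1 / 2 *
      ∑ k, a.f y * (((x - y) k * (x - y) k / t ^ 2 - e3 k k / t) * Gk t (x - y)) := by
    intro y
    rw [← sum_sq_coord]
    simp only [Fin.sum_univ_three, e3_apply, if_true]
    field_simp
    ring
  simp only [e1]
  refine ⟨(integrable_finsetSum _ fun k _ => i1 k).const_mul _, ?_⟩
  rw [integral_const_mul, integral_finsetSum _ fun k _ => i1 k, kin, ← mul_neg,
    ← Finset.sum_neg_distrib]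
  refine congrArg _ (Finset.sum_congr rfl fun k _ => ?_)
  have h1 := ibp a (S.of (s1 k)) k
  simp only [S.of_f, S.of_g, gauss_d1 ht, gauss_d2 ht] at h1 ⊢
  exact h1

theorem Gk_time : ∃ c : ℝ, 0 < c ∧ ∀ x : E3, x ≠ 0 →
    IntegrableOn (fun t => Gk t x) (Ioi 0) ∧ ∫ t in Ioi (0 : ℝ), Gk t x = c / ‖x‖ := by
  have := Real.pi_pos
  have hG := Real.Gamma_pos_of_pos (show (0 : ℝ) < 1 / 2 by norm_num)
  refine ⟨(2 * Real.pi) ^ (-(3 / 2) : ℝ) * (2 ^ (1 / 2 : ℝ) * Real.Gamma (1 / 2)), by positivity,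
    fun x hx => ?_⟩
  have hn : 0 < ‖x‖ := norm_pos_iff.2 hx
  have h1 := integral_comp_rpow_Ioi
    (fun u : ℝ => u ^ (1 / 2 - 1 : ℝ) * Real.exp (-(‖x‖ ^ 2 / 2 * u))) (p := -1) (by norm_num)
  rw [Real.integral_rpow_mul_exp_neg_mul_Ioi (by norm_num) (by positivity)] at h1
  have h2 : ∫ t in Ioi (0 : ℝ), Gk t x = (2 * Real.pi) ^ (-(3 / 2) : ℝ) *
      (2 ^ (1 / 2 : ℝ) * Real.Gamma (1 / 2)) / ‖x‖ := by
    have h3 : (1 / (‖x‖ ^ 2 / 2)) ^ (1 / 2 : ℝ) = 2 ^ (1 / 2 : ℝ) / ‖x‖ := by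
      rw [one_div_div, Real.div_rpow (by norm_num) (by positivity), ← Real.sqrt_eq_rpow (‖x‖ ^ 2),
        Real.sqrt_sq hn.le]
    rw [mul_div_assoc, mul_div_right_comm, ← h3, ← h1, ← integral_const_mul]
    refine setIntegral_congr_fun measurableSet_Ioi fun t ht => ?_
    have ht' : 0 < t := ht
    simp only [Gk, smul_eq_mul]
    rw [Real.mul_rpow (x := 2 * Real.pi) (by positivity) ht'.le, ← Real.rpow_mul ht'.le,
      Real.rpow_neg_one, ← mul_assoc (|(-1 : ℝ)| * _), mul_assoc |(-1 : ℝ)|,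
      ← Real.rpow_add ht', mul_assoc]
    congr 2
    · norm_num
    · congr 1
      field_simp
  exact ⟨Integrable.of_integral_ne_zero (by rw [h2]; positivity), h2⟩

end Vale.Agent.P363
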