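import Vale.Agent.P363.B.Duhamel

/-!
# P363 B/Harnack  (TASK)

`harnack`: with `t = ‖h‖/κ` and any `s > 0`, `Gk_harnack` gives `D (x + h) = GT (s + t) D (x + h) ≥ e^{-κ² t/2} (s/(s+t))^{3/2} e^{-‖h‖²/(2t)} GT s D x`; let `s → ∞`.
`coul_pos`: `c/‖x - y‖ = ∫₀^∞ Gk t (x - y) dt` (`Gk_time`), Fubini, `∬ Gk (2t) (x - y) ρ x ρ y = ∫ (GT 0 t ρ)² ≥ 0` (`Gk_conv`).  If the integral vanished, `GT 0 t ρ = 0` for a.e. `t`, but
`GT 0 t ρ → ρ` in `L²` (`GT_sub_sq_le`).
-/

open MeasureTheory Filter Topology Set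
open scoped ContDiff

set_option linter.unusedSectionVars false

noncomputable section

namespace Vale.Agent.P363

theorem integrable_Gk_mul {D : E3 → ℝ} (hD : AEStronglyMeasurable D volume) {C c : ℝ}
    (hb : ∀ x, |D x| ≤ C * Real.exp (c * ‖x‖)) {t : ℝ} (ht : 0 < t) (x : E3) :
    Integrable fun y => Gk t (x - y) * D y := by
  refine (((integrable_Gk (show 0 < 2 * t by positivity)).comp_sub_left x).const_mul
    (|C| * Real.exp (|c| * ‖x‖) * (3 * Real.exp (|c| ^ 2 * t)))).mono'
    (((contDiff_Gk t).continuous.comp (by fun_prop)).aestronglyMeasurable.mul hD)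
    (Eventually.of_forall fun y => ?_)
  have g0 := Gk_pos ht (x - y)
  have h1 : c * ‖y‖ ≤ |c| * ‖x‖ + |c| * ‖x - y‖ := by
    rw [← mul_add]
    refine mul_le_mul (le_abs_self c) ?_ (norm_nonneg _) (abs_nonneg _)
    simpa using norm_sub_le x (x - y)
  have h2 : |D y| ≤ |C| * (Real.exp (|c| * ‖x‖) * Real.exp (|c| * ‖x - y‖)) := by
    rw [← Real.exp_add]
    exact (hb y).trans (mul_le_mul (le_abs_self C) (Real.exp_le_exp.2 h1) (Real.exp_pos _).le
      (abs_nonneg _))
  rw [norm_mul, Real.norm_of_nonneg g0.le, Real.norm_eq_abs]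
  calc _ ≤ Gk t (x - y) * (|C| * (Real.exp (|c| * ‖x‖) * Real.exp (|c| * ‖x - y‖))) :=
        mul_le_mul_of_nonneg_left h2 g0.le
    _ = |C| * Real.exp (|c| * ‖x‖) * (Gk t (x - y) * Real.exp (|c| * ‖x - y‖)) := by ring
    _ ≤ |C| * Real.exp (|c| * ‖x‖) * (3 * Real.exp (|c| ^ 2 * t) * Gk (2 * t) (x - y)) :=
        mul_le_mul_of_nonneg_left (Gk_exp ht _ _) (by positivity)
    _ = _ := by ring

theorem harnack {D : E3 → ℝ} (hD : Continuous D) (h0 : ∀ x, 0 ≤ D x) {C c κ : ℝ}
    (hb : ∀ x, |D x| ≤ C * Real.exp (c * ‖x‖)) (hκ : 0 < κ)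
    (h : ∀ t : ℝ, 0 < t → ∀ x, GT (κ ^ 2 / 2) t D x = D x) (x h : E3) :
    Real.exp (-κ * ‖h‖) * D x ≤ D (x + h) := by
  have H : ∀ t : ℝ, 0 < t → ∀ x, GT (κ ^ 2 / 2) t D x = D x := by assumption
  rcases eq_or_ne h 0 with rfl | hh
  · simp
  have n0 := norm_pos_iff.2 hh
  set t := ‖h‖ / κ with ht
  have t0 : 0 < t := by positivity
  have key : ∀ s : ℝ, 0 < s →
      (s / (s + t)) ^ (3 / 2 : ℝ) * (Real.exp (-κ * ‖h‖) * D x) ≤ D (x + h) := by
    intro s hs
    have e : Real.exp (-κ * ‖h‖) * Real.exp (-(κ ^ 2 / 2) * s) =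
        Real.exp (-(κ ^ 2 / 2) * (s + t)) * Real.exp (-‖-h‖ ^ 2 / (2 * t)) := by
      rw [← Real.exp_add, ← Real.exp_add, norm_neg, ht]
      congr 1
      field_simp
      ring
    rw [← H s hs x, ← H (s + t) (by positivity) (x + h), GT, GT, ← mul_assoc (Real.exp _), e,
      mul_assoc, mul_left_comm, ← mul_assoc (_ ^ _), ← integral_const_mul]
    refine mul_le_mul_of_nonneg_left (integral_mono
      ((integrable_Gk_mul hD.aestronglyMeasurable hb hs x).const_mul _)
      (integrable_Gk_mul hD.aestronglyMeasurable hb (by positivity) _) fun y => ?_)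
      (Real.exp_pos _).le
    have h1 := mul_le_mul_of_nonneg_right (Gk_harnack hs t0 (x - y) (-h)) (h0 y)
    rwa [mul_assoc, show x - y - -h = x + h - y by abel] at h1
  have T : Tendsto (fun s : ℝ => s / (s + t)) atTop (𝓝 1) := by
    have h1 := ((tendsto_inv_atTop_zero.comp (tendsto_atTop_add_const_right _ t tendsto_id)).const_mul
      t).const_sub 1
    rw [mul_zero, sub_zero] at h1
    refine h1.congr' ((eventually_gt_atTop 0).mono fun s hs => ?_)
    simp only [Function.comp_apply, id]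
    field_simp
    ring
  have T2 := (T.rpow_const (p := (3 / 2 : ℝ)) (Or.inl one_ne_zero)).mul_const
    (Real.exp (-κ * ‖h‖) * D x)
  rw [Real.one_rpow, one_mul] at T2
  exact le_of_tendsto T2 ((eventually_gt_atTop 0).mono key)

theorem har_sq (a : S e3) (h1 : Integrable a.f) {s : ℝ} (hs : 0 < s) :
    ∫ z : E3 × E3, Gk (s + s) (z.1 - z.2) * (a.f z.1 * a.f z.2) ∂(volume.prod volume) =
      ∫ w, GT 0 s a.f w ^ 2 := by
  have c := (contDiff_Gk s).continuous
  have hp := h1.mul_prod h1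
  have I : Integrable (Function.uncurry fun (z : E3 × E3) (w : E3) =>
      Gk s (z.1 - w) * Gk s (w - z.2) * (a.f z.1 * a.f z.2)) ((volume.prod volume).prod volume) := by
    have m : AEStronglyMeasurable (Function.uncurry fun (z : E3 × E3) (w : E3) =>
        Gk s (z.1 - w) * Gk s (w - z.2) * (a.f z.1 * a.f z.2)) ((volume.prod volume).prod volume) :=
      (show Continuous fun p : (E3 × E3) × E3 => Gk s (p.1.1 - p.2) * Gk s (p.2 - p.1.2) by
        fun_prop).aestronglyMeasurable.mul hp.aestronglyMeasurable.comp_fst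
    refine (integrable_prod_iff m).2 ⟨Eventually.of_forall fun z => ?_, ?_⟩
    · simp only [Function.uncurry_apply_pair, Gk_sub_comm s _ z.2]
      exact ((memLp_Gk hs z.1).integrable_mul (memLp_Gk hs z.2)).mul_const _
    · simp only [Function.uncurry_apply_pair, norm_mul (_ * _), integral_mul_const,
        Real.norm_of_nonneg (mul_pos (Gk_pos hs _) (Gk_pos hs _)).le, Gk_conv hs hs]
      exact hp.norm.bdd_mul (c := (2 * Real.pi * (s + s)) ^ (-(3 / 2) : ℝ))
        ((contDiff_Gk _).continuous.comp (by fun_prop)).aestronglyMeasurable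
        (Eventually.of_forall fun z => by
          rw [Real.norm_of_nonneg (Gk_pos (by positivity) _).le]
          exact Gk_le (by positivity) _)
  simp only [← Gk_conv hs hs, ← integral_mul_const]
  rw [integral_integral_swap I]
  refine integral_congr_ae (Eventually.of_forall fun w => ?_)
  simp only [GT, neg_zero, zero_mul, Real.exp_zero, one_mul, sq]
  rw [← integral_prod_mul]
  refine integral_congr_ae (Eventually.of_forall fun z => ?_)
  simp only [Gk_sub_comm s z.1]
  ring

theorem coul_pos (a : S e3) (h1 : Integrable a.f) (hne : ip a a ≠ 0)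
    (hi : Integrable (fun z : E3 × E3 => 1 / ‖z.1 - z.2‖ * (a.f z.1 * a.f z.2)) (volume.prod volume)) :
    0 < ∫ z : E3 × E3, 1 / ‖z.1 - z.2‖ * (a.f z.1 * a.f z.2) ∂(volume.prod volume) := by
  obtain ⟨c, c0, hc⟩ := Gk_time
  have hp := h1.mul_prod h1
  have hd : ∀ᵐ z : E3 × E3 ∂(volume.prod volume), z.1 - z.2 ≠ 0 :=
    (Measure.ae_prod_iff_ae_ae (isOpen_ne_fun (by fun_prop) continuous_const).measurableSet).2
      (Eventually.of_forall fun x => by
        filter_upwards [compl_mem_ae_iff.2 (measure_singleton (μ := volume) x)] with y hy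
        exact sub_ne_zero.2 (Ne.symm hy))
  have I : Integrable (Function.uncurry fun (z : E3 × E3) (t : ℝ) =>
      Gk t (z.1 - z.2) * (a.f z.1 * a.f z.2))
      ((volume.prod volume).prod (volume.restrict (Ioi 0))) := by
    have m : AEStronglyMeasurable (Function.uncurry fun (z : E3 × E3) (t : ℝ) =>
        Gk t (z.1 - z.2) * (a.f z.1 * a.f z.2))
        ((volume.prod volume).prod (volume.restrict (Ioi 0))) :=
      (measurable_Gk.comp (f := fun p : (E3 × E3) × ℝ => (p.2, p.1.1 - p.1.2))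
        (by fun_prop)).aestronglyMeasurable.mul hp.aestronglyMeasurable.comp_fst
    refine (integrable_prod_iff m).2 ⟨hd.mono fun z hz => (hc _ hz).1.mul_const (a.f z.1 * a.f z.2), ?_⟩
    refine (hi.norm.const_mul c).congr (hd.mono fun z hz => ?_)
    simp only [Function.uncurry_apply_pair, norm_mul (Gk _ _), integral_mul_const]
    rw [setIntegral_congr_fun measurableSet_Ioi fun t ht => Real.norm_of_nonneg (Gk_pos ht _).le,
      (hc _ hz).2, norm_mul, Real.norm_of_nonneg (by positivity)]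
    ring
  have e : c * ∫ z : E3 × E3, 1 / ‖z.1 - z.2‖ * (a.f z.1 * a.f z.2) ∂(volume.prod volume) =
      ∫ t in Ioi (0 : ℝ), ∫ z : E3 × E3, Gk t (z.1 - z.2) * (a.f z.1 * a.f z.2)
        ∂(volume.prod volume) := by
    rw [← integral_integral_swap I, ← integral_const_mul]
    refine integral_congr_ae (hd.mono fun z hz => ?_)
    simp only [integral_mul_const, (hc _ hz).2]
    ring
  refine pos_of_mul_pos_left (b := c) ?_ c0.le
  rw [mul_comm, e]
  have P := fun (t : ℝ) (ht : 0 < t) => har_sq a h1 (half_pos ht)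
  simp only [add_halves] at P
  refine (setIntegral_pos_iff_support_of_nonneg_ae ((ae_restrict_iff' measurableSet_Ioi).2
    (Eventually.of_forall fun t ht => ?_)) I.integral_prod_right).2 ?_
  · exact (integral_nonneg fun _ => sq_nonneg _).trans_eq (P t ht).symm
  obtain ⟨τ, τ0, hτ⟩ := exists_pos_mul_lt (lt_of_le_of_ne (ip_nonneg a) hne.symm) (24 * kin a a)
  refine lt_of_lt_of_le (by simpa using τ0) (measure_mono (s := Ioo 0 τ) fun t ht => ⟨?_, ht.1⟩)
  have m1 := GT_memLp a.mem (half_pos ht.1)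
  have h2 := GT_sub_sq_le a (half_pos ht.1)
  have m2 : Integrable fun x => (GT 0 (t / 2) a.f x - a.f x) ^ 2 := (m1.sub a.mem).integrable_sq
  have h3 : ∫ x, a.f x ^ 2 ≤ ∫ x, (2 * GT 0 (t / 2) a.f x ^ 2 +
      2 * (GT 0 (t / 2) a.f x - a.f x) ^ 2) :=
    integral_mono a.int_sq ((m1.integrable_sq.const_mul 2).add
      (m2.const_mul 2)) fun x => by
        nlinarith [sq_nonneg (2 * GT 0 (t / 2) a.f x - a.f x)]
  rw [integral_add (m1.integrable_sq.const_mul 2) (m2.const_mul 2),
    integral_const_mul, integral_const_mul, ← ip_self] at h3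
  have h4 := mul_le_mul_of_nonneg_left ht.2.le (kin_nonneg a)
  refine ne_of_gt (lt_of_lt_of_eq ?_ (P t ht.1).symm)
  linarith

end Vale.Agent.P363
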