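import Vale.Agent.P363.B.Duhamel
import Vale.Agent.P363.A.Hardy

/-!
# P363 B/Rellich  (TASK)

`exists_subseq_pointwise`: on a dense sequence use compactness of a product of intervals in `ℕ → ℝ` (`isCompact_univ_pi`, `IsCompact.tendsto_subseq`); equicontinuity makes the subsequence Cauchy
at every point; the limit inherits the modulus of continuity.  `rellich`: apply it on `ℕ × E3` to `(j, x) ↦ GT 0 (1/(j+1)) (u m) x` (`GT_abs_le`, `GT_lip`).  With `d = u m - u l`:
`∫ d²/‖x‖ ≤ δ ∫ d²/‖x‖² + (1/(4δ)) ∫_{‖x‖ ≤ L} d² + (1/L) ∫ d²`, and on the ball `d = GT d + (d - GT d)`, dominated convergence for the first part, `GT_sub_sq_le` for the second.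
-/

open MeasureTheory Filter Topology Set
open scoped ContDiff

set_option linter.unusedSectionVars false

noncomputable section

namespace Vale.Agent.P363

theorem exists_subseq_pointwise {X : Type} [PseudoMetricSpace X] [TopologicalSpace.SeparableSpace X]
    {D : ℕ → X → ℝ} (hb : ∀ x, ∃ C : ℝ, ∀ m, |D m x| ≤ C)
    (he : ∀ x, ∀ ε : ℝ, 0 < ε → ∃ δ : ℝ, 0 < δ ∧ ∀ m x', dist x' x < δ → |D m x' - D m x| ≤ ε) :
    ∃ (φ : ℕ → ℕ) (F : X → ℝ), StrictMono φ ∧ Continuous F ∧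
      ∀ x, Tendsto (fun m => D (φ m) x) atTop (𝓝 (F x)) := by
  obtain ⟨s, sc, sd⟩ := TopologicalSpace.exists_countable_dense X
  have := sc.to_subtype
  choose C hC using hb
  obtain ⟨G, -, φ, hφ, hG⟩ := (isCompact_univ_pi fun x : s => isCompact_Icc (a := -C x)
    (b := C x)).tendsto_subseq (x := fun m (x : s) => D m x) fun m x _ => abs_le.1 (hC x m)
  have hc : ∀ x, CauchySeq fun m => D (φ m) x := by
    intro x
    refine Metric.cauchySeq_iff.2 fun ε hε => ?_
    obtain ⟨δ, δ0, hδ⟩ := he x (ε / 3) (by positivity)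
    obtain ⟨x', hx', hd⟩ := sd.exists_dist_lt x δ0
    obtain ⟨N, hN⟩ := Metric.cauchySeq_iff.1 (tendsto_pi_nhds.1 hG ⟨x', hx'⟩).cauchySeq (ε / 3)
      (by positivity)
    refine ⟨N, fun m hm l hl => ?_⟩
    have h1 := abs_le.1 (hδ (φ m) x' (by rwa [dist_comm]))
    have h2 := abs_le.1 (hδ (φ l) x' (by rwa [dist_comm]))
    have h3 := abs_lt.1 (show |D (φ m) x' - D (φ l) x'| < ε / 3 from hN m hm l hl)
    rw [Real.dist_eq, abs_lt]
    constructor <;> linarith
  choose F hF using fun x => cauchySeq_tendsto_of_complete (hc x)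
  refine ⟨φ, F, hφ, Metric.continuous_iff.2 fun x ε hε => ?_, hF⟩
  obtain ⟨δ, δ0, hδ⟩ := he x (ε / 2) (by positivity)
  refine ⟨δ, δ0, fun x' hx' => ?_⟩
  exact (le_of_tendsto' ((hF x').sub (hF x)).abs fun m => hδ (φ m) x' hx').trans_lt
    (half_lt_self hε)

theorem rel_pt {r δ η a b g h f : ℝ} (hδ : 0 < δ) (hη : 0 < η) (P : Prop)
    [Decidable P] (hP : ¬ P → η⁻¹ ≤ r) :
    1 / r * (a - b) ^ 2 ≤ δ * (1 / r ^ 2 * (a - b) ^ 2) + η * ((a - b) * (a - b)) +
      δ⁻¹ * ((g - a) ^ 2 + (h - b) ^ 2 + (if P then (g - f) ^ 2 else 0) +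
        if P then (h - f) ^ 2 else 0) := by
  have h0 := mul_self_nonneg (a - b)
  split_ifs with hp
  · have h1 : 1 / r ≤ δ * (1 / r ^ 2) + δ⁻¹ / 4 := by
      have e : δ * (1 / r ^ 2) + δ⁻¹ / 4 - 1 / r = δ * (1 / r - δ⁻¹ / 2) ^ 2 := by
        field_simp
        ring
      have : 0 ≤ δ * (1 / r - δ⁻¹ / 2) ^ 2 := by positivity
      linarith
    have h2 : (a - b) ^ 2 ≤ 4 * ((g - a) ^ 2 + (h - b) ^ 2 + (g - f) ^ 2 + (h - f) ^ 2) := by
      nlinarith [sq_nonneg (g - a + (h - b)), sq_nonneg (g - a + (g - f)),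
        sq_nonneg (g - a - (h - f)), sq_nonneg (h - b - (g - f)), sq_nonneg (h - b + (h - f)),
        sq_nonneg (g - f + (h - f))]
    have h3 := mul_le_mul_of_nonneg_right h1 (sq_nonneg (a - b))
    have h4 := mul_le_mul_of_nonneg_left h2 (show 0 ≤ δ⁻¹ / 4 by positivity)
    have h5 := mul_nonneg hη.le h0
    linarith
  · have h1 : 1 / r ≤ η := by
      rw [one_div]
      exact inv_le_of_inv_le₀ hη (hP hp)
    have h3 := mul_le_mul_of_nonneg_right h1 h0
    have h4 : 0 ≤ δ * (1 / r ^ 2 * (a - b) ^ 2) := by positivity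
    have h5 : 0 ≤ δ⁻¹ * ((g - a) ^ 2 + (h - b) ^ 2 + 0 + 0) := by positivity
    rw [sq]
    rw [sq (a - b)] at h4
    linarith

theorem rellich {u : ℕ → S e3} {C : ℝ} (h : ∀ m, hn (u m) ≤ C) :
    ∃ φ : ℕ → ℕ, StrictMono φ ∧ ∀ ε : ℝ, 0 < ε → ∃ N, ∀ m ≥ N, ∀ l ≥ N,
      ∫ x, 1 / ‖x‖ * ((u (φ m)).f x - (u (φ l)).f x) ^ 2 ≤ ε := by
  classical
  have C0 : 0 ≤ C := (hn_nonneg _).trans (h 0)
  have t0 : ∀ j : ℕ, (0 : ℝ) < 1 / (j + 1) := fun j => by positivity
  have hs : ∀ m, √(∫ y, (u m).f y ^ 2) ≤ √C := fun m =>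
    Real.sqrt_le_sqrt (by rw [← ip_self]; exact (ip_le_hn _).trans (h m))
  have hB : ∀ j : ℕ, ∃ B, ∀ m x, |GT 0 (1 / (j + 1)) (u m).f x| ≤ B := fun j =>
    ⟨_, fun m x => (GT_abs_le (u m).mem 0 (t0 j) x).trans
      (mul_le_mul_of_nonneg_left (hs m) (by positivity))⟩
  obtain ⟨φ, F, hφ, Fc, hF⟩ := exists_subseq_pointwise (X := ℕ × E3)
    (D := fun m p => GT 0 (1 / (p.1 + 1)) (u m).f p.2)
    (fun p => (hB p.1).imp fun B hB m => hB m p.2) (by
      rintro ⟨j, x⟩ ε hε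
      obtain ⟨K, K0, hK⟩ := GT_lip (t0 j)
      obtain ⟨δ, δ0, hδ⟩ := exists_pos_mul_lt hε (K * √C)
      refine ⟨min 1 δ, lt_min one_pos δ0, ?_⟩
      rintro m ⟨j', x'⟩ hd
      rw [Prod.dist_eq, max_lt_iff, lt_min_iff, lt_min_iff] at hd
      obtain rfl : j' = j := by
        by_contra hj
        exact absurd hd.1.1 (not_lt.2 (Nat.pairwise_one_le_dist hj))
      refine (hK _ (u m).mem x' x).trans (le_trans ?_ hδ.le)
      rw [mul_right_comm, ← dist_eq_norm]
      exact mul_le_mul (mul_le_mul_of_nonneg_left (hs m) K0) hd.2.2.le dist_nonneg (by positivity))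
  refine ⟨φ, hφ, fun ε hε => ?_⟩
  obtain ⟨δ, δ0, hδ⟩ := exists_pos_mul_lt (show 0 < ε / 4 by positivity) (32 * C)
  obtain ⟨η, η0, hη⟩ := exists_pos_mul_lt (show 0 < ε / 4 by positivity) (4 * C)
  obtain ⟨τ, τ0, hτ⟩ := exists_pos_mul_lt (show 0 < δ * ε / 4 by positivity) (48 * C)
  obtain ⟨j, hj⟩ := exists_nat_one_div_lt τ0
  obtain ⟨B, hB⟩ := hB j
  set G : ℕ → E3 → ℝ := fun m => GT 0 (1 / (j + 1)) (u (φ m)).f with hG
  set b : ℕ → E3 → ℝ := fun m x => if x ∈ Metric.ball (0 : E3) η⁻¹ then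
    (G m x - F (j, x)) ^ 2 else 0 with hb
  have Gc : ∀ m, Continuous (G m) := fun m => (uniformContinuous_GT (u _).mem 0 (t0 j)).continuous
  have cc : ∀ m, Continuous fun x => (G m x - F (j, x)) ^ 2 := fun m => by
    have := Gc m
    fun_prop
  have bi : ∀ m, Integrable (b m) := fun m =>
    (integrable_indicator_iff measurableSet_ball).2 (((cc m).continuousOn.integrableOn_compact
      (isCompact_closedBall 0 η⁻¹)).mono_set Metric.ball_subset_closedBall)
  have bl : Tendsto (fun m => ∫ x in Metric.ball (0 : E3) η⁻¹, (G m x - F (j, x)) ^ 2) atTop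
      (𝓝 (∫ _ in Metric.ball (0 : E3) η⁻¹, (0 : ℝ))) := by
    have : IsFiniteMeasure ((volume : Measure E3).restrict (Metric.ball 0 η⁻¹)) :=
      isFiniteMeasure_restrict.2 measure_ball_lt_top.ne
    refine tendsto_integral_of_dominated_convergence (fun _ => (B + B) ^ 2)
      (fun m => (cc m).aestronglyMeasurable) (integrable_const _)
      (fun m => Eventually.of_forall fun x => ?_) (Eventually.of_forall fun x => ?_)
    · rw [Real.norm_of_nonneg (sq_nonneg _), ← sq_abs]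
      refine pow_le_pow_left₀ (abs_nonneg _) ((abs_sub _ _).trans (add_le_add (hB _ x) ?_)) 2
      exact le_of_tendsto' (hF (j, x)).abs fun m => hB _ x
    · simpa [hG] using ((hF (j, x)).sub_const (F (j, x))).pow 2
  rw [integral_zero] at bl
  obtain ⟨N, hN⟩ := eventually_atTop.1 (bl.eventually (ge_mem_nhds (show 0 < δ * ε / 8 by positivity)))
  have be : ∀ m ≥ N, ∫ x, b m x ≤ δ * ε / 8 := fun m hm =>
    (integral_indicator measurableSet_ball).trans_le (hN m hm)
  have ai : ∀ m, Integrable fun x => (G m x - (u (φ m)).f x) ^ 2 := fun m =>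
    ((GT_memLp (u _).mem (t0 j)).sub (u _).mem).integrable_sq
  have ae : ∀ m, ∫ x, (G m x - (u (φ m)).f x) ^ 2 ≤ 24 * τ * C := fun m =>
    (GT_sub_sq_le _ (t0 j)).trans (mul_le_mul (by linarith) ((kin_le_hn _).trans (h _))
      (kin_nonneg _) (by positivity))
  refine ⟨N, fun m hm l hl => ?_⟩
  set d := u (φ m) - u (φ l) with hd
  have hd4 : hn d ≤ 4 * C := (hn_sub_le _ _).trans (by linarith [h (φ m), h (φ l)])
  obtain ⟨H1, H2⟩ := hardy d 0
  simp only [sub_zero] at H1 H2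
  have i1 := H1.const_mul δ
  have i2 := (d.int_mul d).const_mul η
  have i3 := (ai m).add (ai l)
  have i4 := i3.add (bi m)
  have i5 := (i4.add (bi l)).const_mul δ⁻¹
  refine (integral_mono_of_nonneg (Eventually.of_forall fun x => by positivity) ((i1.add i2).add i5)
    (Eventually.of_forall fun x => rel_pt δ0 η0 _ fun hx => by
      rwa [mem_ball_zero_iff, not_lt] at hx)).trans ?_
  rw [integral_add' (i1.add i2) i5, integral_add' i1 i2, integral_const_mul, integral_const_mul,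
    integral_const_mul, integral_add' i4 (bi l), integral_add' i3 (bi m),
    integral_add' (ai m) (ai l)]
  have e1 := mul_le_mul_of_nonneg_left (H2.trans (mul_le_mul_of_nonneg_left
    ((kin_le_hn d).trans hd4) (by norm_num))) δ0.le
  have e2 := mul_le_mul_of_nonneg_left ((ip_le_hn d).trans hd4) η0.le
  have e3 := mul_le_mul_of_nonneg_left ((add_le_add (add_le_add (add_le_add (ae m) (ae l))
    (be m hm)) (be l hl)).trans (show _ ≤ δ * (ε / 2) by linarith)) (inv_pos.2 δ0).le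
  rw [inv_mul_cancel_left₀ δ0.ne'] at e3
  rw [ip] at e2
  linarith

end Vale.Agent.P363
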