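import Vale.Agent.P363.B.Harnack
import Vale.Agent.P363.A.Iso

/-!
# P363 B/Wt  (TASK)

Exponentially weighted bounds.  `e^{-c jb (x - p)} ≤ e^{c ‖x - y‖} e^{-c jb (y - p)}` (`abs_jb_sub_le`), `Gk_exp`, Jensen or Cauchy-Schwarz against the probability density `Gk (2r)`, Tonelli.
`GT_semigroup`: Fubini and `Gk_conv`.
-/

open MeasureTheory Filter Topology Set
open scoped ContDiff ENNReal

set_option linter.unusedSectionVars false

noncomputable section

namespace Vale.Agent.P363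

/-- The weighted squared norm centred at `p`. -/
def wn (c : ℝ) (f : E3 → ℝ) (p : E3) : ℝ := ∫ x, (Real.exp (-c * jb (x - p)) * f x) ^ 2

theorem wn_nonneg (c : ℝ) (f : E3 → ℝ) (p : E3) : 0 ≤ wn c f p := integral_nonneg fun _ => sq_nonneg _

theorem wt_cont (c : ℝ) : Continuous fun z : E3 × E3 => Real.exp (-c * jb (z.1 - z.2)) := by
  have := contDiff_jb.continuous
  fun_prop

theorem wt_abs {c : ℝ} (hc : 0 ≤ c) (x a : E3) (r : ℝ) : |Real.exp (-c * jb (x - a)) * r| ≤ |r| := by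
  rw [abs_mul, Real.abs_exp]
  refine mul_le_of_le_one_left (abs_nonneg _) (Real.exp_le_one_iff.2 ?_)
  nlinarith [one_le_jb (x - a)]

theorem wn_int {c : ℝ} (hc : 0 ≤ c) {f : E3 → ℝ} (hf : MemLp f 2 volume) (p : E3) :
    MemLp (fun x => Real.exp (-c * jb (x - p)) * f x) 2 volume :=
  hf.of_le (((wt_cont c).comp (f := fun x => (x, p)) (by fun_prop)).aestronglyMeasurable.mul hf.1)
    (Eventually.of_forall fun x => wt_abs hc x p _)

theorem wn_le {c : ℝ} (hc : 0 ≤ c) {f : E3 → ℝ} (hf : MemLp f 2 volume) (p : E3) :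
    wn c f p ≤ ∫ x, f x ^ 2 :=
  integral_mono_of_nonneg (Eventually.of_forall fun _ => sq_nonneg _) hf.integrable_sq
    (Eventually.of_forall fun x => sq_le_sq.2 (wt_abs hc x p _))

theorem wt_le {c : ℝ} (hc : 0 ≤ c) (x y : E3) :
    Real.exp (-c * jb x) ≤ Real.exp (c * ‖x - y‖) * Real.exp (-c * jb y) := by
  rw [← Real.exp_add, Real.exp_le_exp]
  nlinarith [(abs_le.1 (abs_jb_sub_le x y)).1]

theorem wn_lip {c : ℝ} (hc : 0 ≤ c) {f : E3 → ℝ} (hf : MemLp f 2 volume) (p q : E3) :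
    wn c f p ≤ Real.exp (2 * c * ‖p - q‖) * wn c f q := by
  rw [wn, wn, ← integral_const_mul]
  refine integral_mono_of_nonneg (Eventually.of_forall fun _ => sq_nonneg _)
    ((wn_int hc hf q).integrable_sq.const_mul _) (Eventually.of_forall fun x => ?_)
  have h := wt_le hc (x - p) (x - q)
  rw [sub_sub_sub_cancel_left, norm_sub_rev] at h
  have e : Real.exp (2 * c * ‖p - q‖) = Real.exp (c * ‖p - q‖) ^ 2 := by
    rw [← Real.exp_nat_mul, mul_assoc]
    norm_num
  beta_reduce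
  rw [e, ← mul_pow, ← mul_assoc, mul_pow, mul_pow _ (f x)]
  gcongr

theorem continuous_wn {c : ℝ} (hc : 0 ≤ c) {f : E3 → ℝ} (hf : MemLp f 2 volume) :
    Continuous (wn c f) :=
  continuous_of_dominated (fun p => (wn_int hc hf p).integrable_sq.1)
    (fun p => Eventually.of_forall fun x => by
      rw [Real.norm_of_nonneg (sq_nonneg _)]
      exact sq_le_sq.2 (wt_abs hc x p _)) hf.integrable_sq
    (Eventually.of_forall fun x =>
      (((wt_cont c).comp (f := fun p => (x, p)) (by fun_prop)).mul continuous_const).pow 2)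

theorem wn_mono {c : ℝ} (hc : 0 ≤ c) {f g : E3 → ℝ} (hg : MemLp g 2 volume)
    (h : ∀ᵐ x, |f x| ≤ |g x|) (p : E3) : wn c f p ≤ wn c g p := by
  refine integral_mono_of_nonneg (Eventually.of_forall fun _ => sq_nonneg _)
    (wn_int hc hg p).integrable_sq (h.mono fun x hx => sq_le_sq.2 ?_)
  rw [abs_mul, abs_mul]
  exact mul_le_mul_of_nonneg_left hx (abs_nonneg _)

theorem wt_mink {u v : E3 → ℝ} (hu : MemLp u 2 volume) (hv : MemLp v 2 volume) :
    √(∫ x, (u x + v x) ^ 2) ≤ √(∫ x, u x ^ 2) + √(∫ x, v x ^ 2) := by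
  have e : ∀ {w : E3 → ℝ} (hw : MemLp w 2 volume), √(∫ x, w x ^ 2) = ‖hw.toLp w‖ := fun {w} hw => by
    rw [← Real.sqrt_sq (norm_nonneg (hw.toLp w)), ← real_inner_self_eq_norm_sq, L2.inner_def]
    congr 1
    refine integral_congr_ae (hw.coeFn_toLp.mono fun x hx => ?_)
    simp only [hx, real_inner_self_eq_norm_sq, Real.norm_eq_abs, sq_abs]
  rw [e hu, e hv]
  exact (e (hu.add hv)).trans_le (norm_add_le (hu.toLp u) (hv.toLp v))

theorem sqrt_wn_add {c : ℝ} (hc : 0 ≤ c) {f g : E3 → ℝ} (hf : MemLp f 2 volume)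
    (hg : MemLp g 2 volume) (p : E3) :
    √(wn c (fun x => f x + g x) p) ≤ √(wn c f p) + √(wn c g p) := by
  simpa only [wn, mul_add] using wt_mink (wn_int hc hf p) (wn_int hc hg p)

theorem wt_jensen {Z : Type} [MeasurableSpace Z] {ν : Measure Z} {k σ : Z → ℝ≥0∞}
    (hk : AEMeasurable k ν) (hσ : AEMeasurable σ ν) :
    (∫⁻ z, k z * σ z ∂ν) ^ 2 ≤ (∫⁻ z, k z ∂ν) * ∫⁻ z, k z * σ z ^ 2 ∂ν := by
  have h := ENNReal.lintegral_mul_norm_pow_le hk (hk.mul (hσ.pow_const 2)) (p := 1 / 2) (q := 1 / 2)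
    (by norm_num) (by norm_num) (by norm_num)
  have e : ∀ a : ℝ≥0∞, (a ^ 2) ^ (1 / 2 : ℝ) = a := fun a => by
    rw [← ENNReal.rpow_natCast, ← ENNReal.rpow_mul]
    norm_num
  have e' : ∀ a : ℝ≥0∞, (a ^ (1 / 2 : ℝ)) ^ 2 = a := fun a => by
    rw [← ENNReal.rpow_natCast, ← ENNReal.rpow_mul]
    norm_num
  simp only [Pi.mul_apply, ← ENNReal.mul_rpow_of_nonneg _ _ (show (0 : ℝ) ≤ 1 / 2 by norm_num),
    ← mul_assoc, ← sq, ← mul_pow, e] at h
  exact (pow_le_pow_left' h 2).trans_eq (e' _)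

theorem wt_one {r : ℝ} (hr : 0 < r) : ∫⁻ y, ENNReal.ofReal (Gk r y) = 1 := by
  rw [← ofReal_integral_eq_lintegral_ofReal (integrable_Gk hr)
    (Eventually.of_forall fun y => (Gk_pos hr y).le), integral_Gk hr, ENNReal.ofReal_one]

theorem wt_lint (t : ℝ) {σ : E3 → ℝ≥0∞} (hσ : AEMeasurable σ volume) :
    ∫⁻ x, (∫⁻ r in Ioc 0 t, ∫⁻ y, ENNReal.ofReal (Gk (2 * r) (x - y)) * σ y) ^ 2 ≤
      ENNReal.ofReal t ^ 2 * ∫⁻ y, σ y ^ 2 := by
  have hm : Measurable fun w : E3 × ℝ × E3 => ENNReal.ofReal (Gk (2 * w.2.1) (w.1 - w.2.2)) :=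
    (measurable_Gk.comp (f := fun w : E3 × ℝ × E3 => (2 * w.2.1, w.1 - w.2.2))
      (by fun_prop)).ennreal_ofReal
  have hx : ∀ x, Measurable fun z : ℝ × E3 => ENNReal.ofReal (Gk (2 * z.1) (x - z.2)) := fun x =>
    hm.comp measurable_prodMk_left
  have hs := hσ.comp_snd (μ := volume.restrict (Ioc 0 t))
  have h1 : ∀ x, ∫⁻ z : ℝ × E3, ENNReal.ofReal (Gk (2 * z.1) (x - z.2))
      ∂(volume.restrict (Ioc 0 t)).prod volume = ENNReal.ofReal t := fun x => by
    rw [lintegral_prod _ (hx x).aemeasurable, setLIntegral_congr_fun (g := fun _ => 1)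
      measurableSet_Ioc fun r hr => ?_, setLIntegral_one, Real.volume_Ioc, sub_zero]
    exact (lintegral_sub_left_eq_self (fun y => ENNReal.ofReal (Gk (2 * r) y)) x).trans
      (wt_one (mul_pos two_pos hr.1))
  calc _ ≤ ∫⁻ x, ENNReal.ofReal t * ∫⁻ z : ℝ × E3, ENNReal.ofReal (Gk (2 * z.1) (x - z.2)) *
        σ z.2 ^ 2 ∂(volume.restrict (Ioc 0 t)).prod volume := lintegral_mono fun x => by
        rw [← h1 x]
        exact (congrArg (· ^ 2) (lintegral_prod _ ((hx x).aemeasurable.mul hs))).ge.trans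
          (wt_jensen (hx x).aemeasurable hs)
    _ = _ := by
        rw [lintegral_const_mul' _ _ ENNReal.ofReal_ne_top,
          lintegral_lintegral_swap (by exact hm.aemeasurable.mul (hs.pow_const 2).comp_snd),
          lintegral_congr_ae (g := fun z => σ z.2 ^ 2), lintegral_prod _ (hs.pow_const 2)]
        · simp only [setLIntegral_const, Real.volume_Ioc, sub_zero]
          ring
        rw [Measure.restrict_prod_eq_prod_univ]
        refine (ae_restrict_mem (measurableSet_Ioc.prod .univ)).mono fun z hz => ?_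
        beta_reduce
        rw [lintegral_mul_const _ (by exact hm.comp (f := fun x => (x, z)) (by fun_prop)),
          lintegral_sub_right_eq_self (fun y => ENNReal.ofReal (Gk (2 * z.1) y)) z.2,
          wt_one (mul_pos two_pos hz.1.1), one_mul]

theorem wt_duh {c : ℝ} (hc : 0 ≤ c) (m t : ℝ) {s : E3 → ℝ} (hs : MemLp s 2 volume) (p : E3) :
    ∫⁻ x, ‖(Real.exp (-c * jb (x - p)) * ∫ r in Ioc 0 t, GT m r s x) ^ 2‖ₑ ≤
      (ENNReal.ofReal (Real.exp (|m| * t) * (3 * Real.exp (c ^ 2 * t))) * ENNReal.ofReal t) ^ 2 *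
        ∫⁻ y, ‖(Real.exp (-c * jb (y - p)) * s y) ^ 2‖ₑ := by
  simp only [enorm_pow]
  rw [mul_pow, mul_assoc]
  refine le_trans ?_ (mul_le_mul_right (wt_lint t (wn_int hc hs p).1.enorm) _)
  rw [← lintegral_const_mul' _ _ (by finiteness)]
  refine lintegral_mono fun x => ?_
  rw [← mul_pow, ← lintegral_const_mul' _ _ ENNReal.ofReal_ne_top, ← integral_const_mul]
  refine pow_le_pow_left' ((enorm_integral_le_lintegral_enorm _).trans
    (setLIntegral_mono' measurableSet_Ioc fun r hr => ?_)) 2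
  rw [GT, ← mul_assoc, ← integral_const_mul, ← lintegral_const_mul' _ _ ENNReal.ofReal_ne_top]
  refine (enorm_integral_le_lintegral_enorm _).trans (lintegral_mono fun y => ?_)
  have h2 := Gk_pos (mul_pos two_pos hr.1) (x - y)
  have h3 := Gk_pos hr.1 (x - y)
  rw [Real.enorm_eq_ofReal_abs, Real.enorm_eq_ofReal_abs, ← ENNReal.ofReal_mul h2.le,
    ← ENNReal.ofReal_mul (by positivity)]
  refine ENNReal.ofReal_le_ofReal ?_
  have h4 := wt_le hc (x - p) (y - p)
  rw [sub_sub_sub_cancel_right] at h4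
  have h5 : Real.exp (-m * r) ≤ Real.exp (|m| * t) := Real.exp_le_exp.2
    (mul_le_mul (neg_le_abs m) hr.2 hr.1.le (abs_nonneg m))
  have h6 : Real.exp (c ^ 2 * r) ≤ Real.exp (c ^ 2 * t) := by gcongr; exact hr.2
  simp only [abs_mul, Real.abs_exp, abs_of_pos h3]
  calc _ ≤ Real.exp (c * ‖x - y‖) * Real.exp (-c * jb (y - p)) * Real.exp (|m| * t) *
        (Gk r (x - y) * |s y|) := by gcongr
    _ = Real.exp (|m| * t) * (Gk r (x - y) * Real.exp (c * ‖x - y‖)) *
        (Real.exp (-c * jb (y - p)) * |s y|) := by ring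
    _ ≤ Real.exp (|m| * t) * (3 * Real.exp (c ^ 2 * t) * Gk (2 * r) (x - y)) *
        (Real.exp (-c * jb (y - p)) * |s y|) := by
        gcongr _ * ?_ * _
        exact (Gk_exp hr.1 c _).trans (by gcongr)
    _ = _ := by ring

theorem wt_ofReal {c : ℝ} (hc : 0 ≤ c) {f : E3 → ℝ} (hf : MemLp f 2 volume) (p : E3) :
    ∫⁻ x, ‖(Real.exp (-c * jb (x - p)) * f x) ^ 2‖ₑ = ENNReal.ofReal (wn c f p) := by
  rw [wn, ofReal_integral_eq_lintegral_ofReal (wn_int hc hf p).integrable_sq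
    (Eventually.of_forall fun _ => sq_nonneg _)]
  exact lintegral_congr fun x => Real.enorm_eq_ofReal (sq_nonneg _)

theorem wn_duh {c : ℝ} (hc : 0 ≤ c) (m : ℝ) {t : ℝ} (ht : 0 < t) : ∃ K : ℝ, 0 ≤ K ∧
    ∀ s : E3 → ℝ, MemLp s 2 volume → MemLp (fun x => ∫ r in Ioc 0 t, GT m r s x) 2 volume ∧
      ∀ p, wn c (fun x => ∫ r in Ioc 0 t, GT m r s x) p ≤ K * wn c s p := by
  refine ⟨(Real.exp (|m| * t) * (3 * Real.exp (c ^ 2 * t)) * t) ^ 2, sq_nonneg _, fun s hs => ?_⟩
  have hm : AEStronglyMeasurable (fun x => ∫ r in Ioc 0 t, GT m r s x) volume := by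
    refine AEStronglyMeasurable.integral_prod_right' (f := fun z : E3 × ℝ => GT m z.2 s z.1)
      (AEStronglyMeasurable.prod_swap (f := fun z : ℝ × E3 => GT m z.1 s z.2) ?_)
    rw [Measure.restrict_prod_eq_prod_univ]
    exact ((continuousOn_GT hs m).mono fun z hz => hz.1.1).aestronglyMeasurable
      (measurableSet_Ioc.prod .univ)
  have hu : MemLp (fun x => ∫ r in Ioc 0 t, GT m r s x) 2 volume := by
    have h := wt_duh le_rfl m t hs 0
    rw [wt_ofReal le_rfl hs] at h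
    simp only [neg_zero, zero_mul, Real.exp_zero, one_mul] at h
    exact (memLp_two_iff_integrable_sq hm).2 ⟨hm.pow 2, h.trans_lt (by finiteness)⟩
  refine ⟨hu, fun p => ?_⟩
  have h := wt_duh hc m t hs p
  rwa [wt_ofReal hc hs, wt_ofReal hc hu, ← ENNReal.ofReal_mul (by positivity),
    ← ENNReal.ofReal_pow (by positivity), ← ENNReal.ofReal_mul (by positivity),
    ENNReal.ofReal_le_ofReal_iff (mul_nonneg (sq_nonneg _) (wn_nonneg _ _ _))] at h

theorem wt_key {c : ℝ} (hc : 0 ≤ c) {f : E3 → ℝ} (hf : MemLp f 2 volume) {τ B : ℝ} (hτ : 0 < τ)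
    (hB : 0 ≤ B) (x : E3) {k : E3 → ℝ}
    (hk : ∀ y, |k y| ≤ B * (Gk τ (x - y) * Real.exp (-c * jb (y - x)))) :
    |∫ y, k y * f y| ≤ B * τ ^ (-(3 / 4) : ℝ) * √(wn c f x) := by
  have hσ := (wn_int hc hf x).abs
  have h := GT_abs_le hσ 0 hτ x
  simp only [GT, neg_zero, zero_mul, Real.exp_zero, one_mul, Pi.abs_apply, sq_abs] at h
  refine (norm_integral_le_of_norm_le (f := fun y => k y * f y) (((memLp_Gk hτ x).integrable_mul hσ).const_mul B)
    (Eventually.of_forall fun y => ?_)).trans ?_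
  · simp only [Real.norm_eq_abs, Pi.mul_apply, Pi.abs_apply, abs_mul, Real.abs_exp]
    exact (mul_le_mul_of_nonneg_right (hk y) (abs_nonneg _)).trans_eq (by ring)
  · rw [integral_const_mul, mul_assoc]
    exact mul_le_mul_of_nonneg_left ((le_abs_self _).trans h) hB

theorem wt_ker {c : ℝ} (hc : 0 ≤ c) {t : ℝ} (ht : 0 < t) : ∃ B : ℝ, 0 ≤ B ∧ ∀ z h : E3, ‖h‖ ≤ 1 →
    Gk t z * Real.exp ‖z‖ ≤ B * (Gk (2 * t + t) (z - h) * Real.exp (-c * jb (h - z))) := by
  have hA : 0 < (2 * t / (2 * t + t)) ^ (3 / 2 : ℝ) * Real.exp (-1 / (2 * t)) := by positivity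
  refine ⟨_, (div_pos (a := Real.exp (2 * c) * (3 * Real.exp ((c + 1) ^ 2 * t))) (by positivity)
    hA).le, fun z h hh => ?_⟩
  have h0 := Gk_pos (mul_pos two_pos ht) z
  have h1 := Gk_exp ht (c + 1) z
  have h2 : (2 * t / (2 * t + t)) ^ (3 / 2 : ℝ) * Real.exp (-1 / (2 * t)) * Gk (2 * t) z ≤
      Gk (2 * t + t) (z - h) := by
    refine le_trans ?_ (Gk_harnack (mul_pos two_pos ht) ht z h)
    gcongr
    exact pow_le_one₀ (norm_nonneg _) hh
  have h3 : Real.exp ‖z‖ ≤
      Real.exp ((c + 1) * ‖z‖) * (Real.exp (2 * c) * Real.exp (-c * jb (h - z))) := by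
    rw [← Real.exp_add, ← Real.exp_add, Real.exp_le_exp]
    nlinarith [jb_le (h - z), norm_sub_le h z]
  rw [div_mul_eq_mul_div, le_div_iff₀ hA]
  generalize (2 * t / (2 * t + t)) ^ (3 / 2 : ℝ) * Real.exp (-1 / (2 * t)) = A at hA h2
  calc _ ≤ Gk t z * (Real.exp ((c + 1) * ‖z‖) * (Real.exp (2 * c) *
        Real.exp (-c * jb (h - z)))) * A := by have := Gk_pos ht z; gcongr
    _ ≤ 3 * Real.exp ((c + 1) ^ 2 * t) * Gk (2 * t) z * (Real.exp (2 * c) *
        Real.exp (-c * jb (h - z))) * A := by rw [← mul_assoc (Gk t z)]; gcongr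
    _ = Real.exp (2 * c) * (3 * Real.exp ((c + 1) ^ 2 * t)) * (A * Gk (2 * t) z *
        Real.exp (-c * jb (h - z))) := by ring
    _ ≤ _ := by gcongr

theorem GT_le_wn {c : ℝ} (hc : 0 ≤ c) (m : ℝ) {t : ℝ} (ht : 0 < t) : ∃ K : ℝ, 0 ≤ K ∧
    ∀ f : E3 → ℝ, MemLp f 2 volume → ∀ x, |GT m t f x| ≤ K * √(wn c f x) ∧
      ∀ x', ‖x' - x‖ ≤ 1 → |GT m t f x' - GT m t f x| ≤ K * ‖x' - x‖ * √(wn c f x) := by
  obtain ⟨B, hB, H⟩ := wt_ker hc ht
  have hτ : 0 < 2 * t + t := by positivity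
  refine ⟨Real.exp (-m * t) * ((1 + 1 / t) * B * (2 * t + t) ^ (-(3 / 4) : ℝ)), by positivity,
    fun f hf x => ⟨?_, fun x' hx => ?_⟩⟩
  · rw [GT, abs_mul, Real.abs_exp, mul_assoc]
    refine mul_le_mul_of_nonneg_left (wt_key hc hf hτ (by positivity) x fun y => ?_)
      (Real.exp_pos _).le
    have h := H (x - y) 0 (by simp)
    have h0 := Gk_pos ht (x - y)
    have h1 := Gk_pos hτ (x - y)
    rw [sub_zero, zero_sub, neg_sub] at h
    rw [abs_of_pos h0, mul_assoc]
    exact ((le_mul_of_one_le_right h0.le (Real.one_le_exp (norm_nonneg _))).trans h).trans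
      (le_mul_of_one_le_left (by positivity) (le_add_of_nonneg_right (by positivity)))
  · rw [GT, GT, ← mul_sub, abs_mul, Real.abs_exp, ← integral_sub
      (by exact (memLp_Gk ht x').integrable_mul hf) (by exact (memLp_Gk ht x).integrable_mul hf)]
    simp only [← sub_mul]
    refine (mul_le_mul_of_nonneg_left (wt_key hc hf hτ (B := (1 + 1 / t) * B * ‖x' - x‖)
      (by positivity) x fun y => ?_) (Real.exp_pos _).le).trans_eq (by ring)
    have h := (convex_closedBall (x - y) 1).norm_image_sub_le_of_norm_fderiv_le (f := Gk t)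
      (C := (1 + 1 / t) * (B * (Gk (2 * t + t) (x - y) * Real.exp (-c * jb (y - x)))))
      (fun z _ => ((contDiff_Gk t).differentiable (by simp)).differentiableAt) (fun z hz => ?_)
      (Metric.mem_closedBall_self zero_le_one)
      (show x' - y ∈ _ by rwa [mem_closedBall_iff_norm, sub_sub_sub_cancel_right])
    · rw [sub_sub_sub_cancel_right] at h
      exact h.trans_eq (by ring)
    · have h1 := H z (z - (x - y)) (mem_closedBall_iff_norm.1 hz)
      have h0 := Gk_pos ht z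
      rw [sub_sub_cancel, sub_sub_cancel_left, neg_sub] at h1
      rw [norm_fderiv_Gk ht, div_eq_mul_one_div, mul_comm ‖z‖, mul_assoc, mul_comm ‖z‖]
      refine mul_le_mul (by linarith) (le_trans ?_ h1) (by positivity) (by positivity)
      exact mul_le_mul_of_nonneg_left (by linarith [Real.add_one_le_exp ‖z‖]) h0.le

theorem GT_semigroup {f : E3 → ℝ} (hf : MemLp f 2 volume) (m : ℝ) {s t : ℝ} (hs : 0 < s)
    (ht : 0 < t) (x : E3) : GT m s (GT m t f) x = GT m (s + t) f x := by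
  have hi : Integrable (fun z : E3 × E3 => Gk s (x - z.1) * Gk t (z.1 - z.2) * f z.2)
      (volume.prod volume) := by
    have h1 := (contDiff_Gk s).continuous
    have h2 := (contDiff_Gk t).continuous
    refine (integrable_prod_iff' (by exact ((Continuous.aestronglyMeasurable (by fun_prop)).mul
      hf.1.comp_snd))).2 ⟨Eventually.of_forall fun z => ?_, ?_⟩
    · simp only [Gk_sub_comm t _ z]
      exact ((memLp_Gk hs x).integrable_mul (memLp_Gk ht z)).mul_const _
    · simp only [norm_mul, Real.norm_of_nonneg (Gk_pos hs _).le, Real.norm_of_nonneg (Gk_pos ht _).le,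
        integral_mul_const, Gk_conv hs ht]
      exact (memLp_Gk (add_pos hs ht) x).integrable_mul hf.norm
  have h := integral_integral_swap (f := fun y z => Gk s (x - y) * Gk t (y - z) * f z) hi
  simp only [integral_mul_const, Gk_conv hs ht] at h
  simp only [mul_assoc, integral_const_mul] at h
  simp only [GT, mul_left_comm (Gk s _), integral_const_mul, h, mul_add, Real.exp_add, mul_assoc]

theorem GT_add {f g : E3 → ℝ} (hf : MemLp f 2 volume) (hg : MemLp g 2 volume) (m : ℝ) {t : ℝ}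
    (ht : 0 < t) (x : E3) : GT m t (fun y => f y + g y) x = GT m t f x + GT m t g x := by
  simp only [GT, mul_add]
  rw [integral_add (by exact (memLp_Gk ht x).integrable_mul hf)
    (by exact (memLp_Gk ht x).integrable_mul hg), mul_add]

theorem GT_congr {f g : E3 → ℝ} (h : f =ᵐ[volume] g) (m t : ℝ) (x : E3) :
    GT m t f x = GT m t g x :=
  congrArg (_ * ·) (integral_congr_ae (h.mono fun y hy => by simp only [hy]))

theorem GT_shift (f : E3 → ℝ) (m t : ℝ) (p x : E3) :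
    GT m t (fun y => f (p + y)) x = GT m t f (p + x) := by
  rw [GT, GT, ← integral_add_left_eq_self (fun y => Gk t (p + x - y) * f y) p]
  simp only [add_sub_add_left_eq_sub]

theorem GT_rf (f : E3 → ℝ) (m t : ℝ) (k : Fin 3) (x : E3) :
    GT m t (fun y => f (rf k y)) x = GT m t f (rf k x) := by
  obtain ⟨L, hL⟩ := exists_rfL k
  rw [GT, GT, ← L.measurePreserving.integral_comp L.toHomeomorph.measurableEmbedding
    fun y => Gk t (rf k x - y) * f y]
  simp only [hL, ← rf_sub, Gk, norm_rf]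

end Vale.Agent.P363
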